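import Crest.Agent.R258.Defs

/-!
PIECE 258-3.  A homogeneous polynomial of degree `n + 1` in two variables is
`X 0 * R₀ + X 1 * R₁` with `R₀, R₁` homogeneous of degree `n`.
-/

noncomputable section
namespace Crest.Agent.R258

theorem homog_decomp_monomial {n : ℕ} (m : Fin 2 →₀ ℕ) (c : ℂ) (hm : m 0 + m 1 = n + 1) :
    ∃ R₀ R₁ : MvPolynomial (Fin 2) ℂ, R₀.IsHomogeneous n ∧ R₁.IsHomogeneous n ∧
      MvPolynomial.monomial m c = MvPolynomial.X 0 * R₀ + MvPolynomial.X 1 * R₁ := by
  have aux : ∀ i : Fin 2, 0 < m i → (MvPolynomial.monomial (m - Finsupp.single i 1) c :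
      MvPolynomial (Fin 2) ℂ).IsHomogeneous n ∧ MvPolynomial.monomial m c =
        MvPolynomial.X i * MvPolynomial.monomial (m - Finsupp.single i 1) c := by
    intro i hi
    have hle : Finsupp.single i 1 ≤ m := by
      rw [Finsupp.single_le_iff]; exact hi
    constructor
    · apply MvPolynomial.isHomogeneous_monomial
      have h1 : m = (m - Finsupp.single i 1) + Finsupp.single i 1 := by
        rw [tsub_add_cancel_of_le hle]
      have h2 : m.degree = (m - Finsupp.single i 1).degree + 1 := by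
        conv_lhs => rw [h1]
        rw [map_add, Finsupp.degree_single]
      have h3 : m.degree = n + 1 := by
        rw [Finsupp.degree_eq_sum, Fin.sum_univ_two, hm]
      omega
    · rw [MvPolynomial.X, MvPolynomial.monomial_mul, one_mul, add_comm,
        tsub_add_cancel_of_le hle]
  by_cases h0 : 0 < m 0
  · obtain ⟨h1, h2⟩ := aux 0 h0
    exact ⟨_, 0, h1, MvPolynomial.isHomogeneous_zero _ _ _, by rw [mul_zero, add_zero]; exact h2⟩
  · have h0' : 0 < m 1 := by omega
    obtain ⟨h1, h2⟩ := aux 1 h0'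
    exact ⟨0, _, MvPolynomial.isHomogeneous_zero _ _ _, h1, by rw [mul_zero, zero_add]; exact h2⟩

theorem homog_decomp {n : ℕ} {R : MvPolynomial (Fin 2) ℂ} (hR : R.IsHomogeneous (n + 1)) :
    ∃ R₀ R₁ : MvPolynomial (Fin 2) ℂ, R₀.IsHomogeneous n ∧ R₁.IsHomogeneous n ∧
      R = MvPolynomial.X 0 * R₀ + MvPolynomial.X 1 * R₁ := by
  have key : ∀ s : Finset (Fin 2 →₀ ℕ), (∀ m ∈ s, m 0 + m 1 = n + 1) →
      ∃ R₀ R₁ : MvPolynomial (Fin 2) ℂ, R₀.IsHomogeneous n ∧ R₁.IsHomogeneous n ∧
      ∑ m ∈ s, MvPolynomial.monomial m (MvPolynomial.coeff m R)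
        = MvPolynomial.X 0 * R₀ + MvPolynomial.X 1 * R₁ := by
    intro s
    induction s using Finset.induction_on with
    | empty =>
      intro _
      exact ⟨0, 0, MvPolynomial.isHomogeneous_zero _ _ _, MvPolynomial.isHomogeneous_zero _ _ _,
        by simp⟩
    | insert m s hms ih =>
      intro h
      obtain ⟨R₀, R₁, h0, h1, e⟩ := ih (fun m' hm' => h m' (Finset.mem_insert_of_mem hm'))
      obtain ⟨S₀, S₁, k0, k1, e'⟩ := homog_decomp_monomial m (MvPolynomial.coeff m R)
        (h m (Finset.mem_insert_self _ _))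
      refine ⟨S₀ + R₀, S₁ + R₁, k0.add h0, k1.add h1, ?_⟩
      rw [Finset.sum_insert hms, e, e']
      ring
  obtain ⟨R₀, R₁, h0, h1, e⟩ := key R.support (by
    intro m hm
    have h := hR (MvPolynomial.mem_support_iff.1 hm)
    have h2 : m.degree = n + 1 := by
      rw [← h, Finsupp.weight_apply, Finsupp.degree_eq_sum, Finsupp.sum_fintype _ _ (by simp)]
      simp
    rw [← h2, Finsupp.degree_eq_sum, Fin.sum_univ_two])
  refine ⟨R₀, R₁, h0, h1, ?_⟩
  rw [← e]
  exact (MvPolynomial.support_sum_monomial_coeff R).symm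

end Crest.Agent.R258
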