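import Crest.Agent.R258.Defs

/-!
PIECE 258-4.  The three sections `secA d i` of `E(-2,1)`, and they generate at every point.

`secA_isVecSec`: `diff` by `fun_prop`/`simp`; `compat`: 16 pairs of charts × 3 sections, in each case
`ext` over the component, unfold everything, on the overlap the inverted coordinates are non-zero;
`field_simp; ring`.  For the flip of the first coordinate the claim is `s^α = diag(X^3, 1) s^β`, for
the second flip `s^α = [[Y^-9, -Y h], [0, -Y^18]] s^β(X, Y⁻¹)`.  (All 48 identities were checked by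
computer algebra.)

`secA_span`: with `x = X^3`, `y = Y^3` the 2×2 minors `det (A_i, A_j)` are, type 0:
  `m01 = -(1 + d x y^2)`, `m02 = -(1 - d^2)(x + y^3)`, `m12 = -y (d + x y^2)`,
type 1:
  `m01 = -(x + d y^2)`, `m02 = -(1 - d^2)(1 + x y^3)`, `m12 = -y (y^2 + d x)`.
They have no common zero if `d^2 ≠ 1` (type 0: `m12 = 0` and `m01 = 0` give `y ≠ 0`, `x y^2 = -d`,
`1 - d^2 = 0`; type 1: `x = -d y^2`, `1 + x y^3 = 0` give `y ≠ 0` and `y^2 (1 - d^2) = 0`).
So two of the vectors are a basis of `ℂ²` and every `v` is a combination `∑ cᵢ A_i` (Cramer).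
-/

noncomputable section
namespace Crest.Agent.R258
open Crest.AlgGeometry.QuadricBundle

set_option maxHeartbeats 4000000 in
set_option linter.unusedSimpArgs false in
theorem secA_isVecSec (d : ℂ) (i : Fin 3) : IsVecSec (gE d) (-2) 1 (secA d i) where
  diff := by
    rintro ⟨a1, a2⟩ j
    fin_cases a1 <;> fin_cases a2 <;> fin_cases i <;> fin_cases j <;>
      simp [secA, Av0, Av1, Fin.rev] <;> fun_prop
  compat := by
    rintro ⟨a1, a2⟩ ⟨b1, b2⟩ p ⟨h0, h1⟩
    obtain ⟨X, hX⟩ : ∃ X, p 0 = X := ⟨_, rfl⟩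
    obtain ⟨Y, hY⟩ : ∃ Y, p 1 = Y := ⟨_, rfl⟩
    rw [hX] at h0
    rw [hY] at h1
    fin_cases a1 <;> fin_cases a2 <;> fin_cases b1 <;> fin_cases b2 <;>
      simp only [Fin.zero_eta, Fin.mk_one, Fin.isValue, ne_eq, not_true_eq_false, false_implies,
        zero_ne_one, one_ne_zero, not_false_eq_true, true_implies] at h0 h1 <;>
      ext j <;> fin_cases i <;> fin_cases j <;>
      simp [secA, Av0, Av1, Fin.rev, gE, TY, DX, hh, tau, lineTrans, hX, hY, Matrix.mulVec,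
        dotProduct, Fin.sum_univ_two, Matrix.mul_apply, zpow_neg] <;>
      (try field_simp) <;> (try ring)

theorem cramer2A (a0 a1 b0 b1 v0 v1 : ℂ) (h : a0 * b1 - a1 * b0 ≠ 0) :
    ∃ s t : ℂ, v0 = s * a0 + t * b0 ∧ v1 = s * a1 + t * b1 := by
  refine ⟨(v0 * b1 - v1 * b0) / (a0 * b1 - a1 * b0), (a0 * v1 - a1 * v0) / (a0 * b1 - a1 * b0),
    ?_, ?_⟩
  · rw [div_mul_eq_mul_div, div_mul_eq_mul_div, ← add_div, eq_div_iff h]; ring
  · rw [div_mul_eq_mul_div, div_mul_eq_mul_div, ← add_div, eq_div_iff h]; ring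

/-- Cramer's rule: three vectors of `ℂ²` with a nonzero minor span -/
theorem span_of_minorA (A : Fin 3 → Fin 2 → ℂ)
    (h : A 0 0 * A 1 1 - A 0 1 * A 1 0 ≠ 0 ∨ A 0 0 * A 2 1 - A 0 1 * A 2 0 ≠ 0 ∨
      A 1 0 * A 2 1 - A 1 1 * A 2 0 ≠ 0) (v : Fin 2 → ℂ) :
    ∃ c : Fin 3 → ℂ, v = ∑ i, c i • A i := by
  rcases h with h | h | h
  · obtain ⟨s, t, h0, h1⟩ := cramer2A _ _ _ _ (v 0) (v 1) h
    refine ⟨![s, t, 0], funext fun j => ?_⟩
    fin_cases j
    · simpa [Fin.sum_univ_three] using h0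
    · simpa [Fin.sum_univ_three] using h1
  · obtain ⟨s, t, h0, h1⟩ := cramer2A _ _ _ _ (v 0) (v 1) h
    refine ⟨![s, 0, t], funext fun j => ?_⟩
    fin_cases j
    · simpa [Fin.sum_univ_three] using h0
    · simpa [Fin.sum_univ_three] using h1
  · obtain ⟨s, t, h0, h1⟩ := cramer2A _ _ _ _ (v 0) (v 1) h
    refine ⟨![0, s, t], funext fun j => ?_⟩
    fin_cases j
    · simpa [Fin.sum_univ_three] using h0
    · simpa [Fin.sum_univ_three] using h1

theorem span_revA (A : Fin 3 → Fin 2 → ℂ) (h : ∀ v : Fin 2 → ℂ, ∃ c : Fin 3 → ℂ, v = ∑ i, c i • A i)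
    (e : Fin 3 → ℂ) (he : ∀ i, e i ≠ 0) (v : Fin 2 → ℂ) :
    ∃ c : Fin 3 → ℂ, v = ∑ i, c i • (e i • A (Fin.rev i)) := by
  obtain ⟨c, hc⟩ := h v
  refine ⟨fun i => c (Fin.rev i) * (e i)⁻¹, ?_⟩
  rw [hc]
  rw [← Equiv.sum_comp Fin.revPerm (fun i => c i • A i)]
  refine Finset.sum_congr rfl fun i _ => ?_
  rw [smul_smul, mul_assoc, inv_mul_cancel₀ (he i), mul_one]
  rfl

theorem Av0_span (d : ℂ) (hd : d ^ 2 ≠ 1) (x y : ℂ) (v : Fin 2 → ℂ) :
    ∃ c : Fin 3 → ℂ, v = ∑ i, c i • Av0 d x y i := by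
  apply span_of_minorA
  by_contra hcon
  push Not at hcon
  obtain ⟨h1, _, h3⟩ := hcon
  simp [Av0] at h1 h3
  have h1' : 1 + d * x * y ^ 2 = 0 := by linear_combination -h1
  have h3' : y * (d + x * y ^ 2) = 0 := by linear_combination -h3
  rcases mul_eq_zero.mp h3' with h | h
  · rw [h] at h1'; simp at h1'
  · apply hd
    linear_combination -h1' + d * h

theorem Av1_span (d : ℂ) (hd : d ^ 2 ≠ 1) (x y : ℂ) (v : Fin 2 → ℂ) :
    ∃ c : Fin 3 → ℂ, v = ∑ i, c i • Av1 d x y i := by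
  apply span_of_minorA
  by_contra hcon
  push Not at hcon
  obtain ⟨h1, h2, h3⟩ := hcon
  simp [Av1] at h1 h2 h3
  have h1' : x + d * y ^ 2 = 0 := by linear_combination -h1
  have h2' : (1 - d ^ 2) * (1 + x * y ^ 3) = 0 := by linear_combination -h2
  have h3' : y * (y ^ 2 + d * x) = 0 := by linear_combination -h3
  have hd' : 1 - d ^ 2 ≠ 0 := fun h => hd (by linear_combination -h)
  have h2'' : 1 + x * y ^ 3 = 0 := (mul_eq_zero.mp h2').resolve_left hd'
  rcases mul_eq_zero.mp h3' with h | h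
  · rw [h] at h2''; simp at h2''
  · have h4 : y ^ 2 * (1 - d ^ 2) = 0 := by linear_combination h - d * h1'
    rcases mul_eq_zero.mp h4 with h5 | h5
    · have : y = 0 := by simpa using h5
      rw [this] at h2''; simp at h2''
    · exact hd' h5

theorem secA_span (d : ℂ) (hd : d ^ 2 ≠ 1) (α : Chart) (p v : Fin 2 → ℂ) :
    ∃ c : Fin 3 → ℂ, v = ∑ i, c i • secA d i α p := by
  obtain ⟨a1, a2⟩ := α
  fin_cases a1 <;> fin_cases a2
  · exact Av0_span d hd _ _ v
  · obtain ⟨c, hc⟩ :=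
      span_revA _ (Av1_span d hd (p 0 ^ 3) (p 1 ^ 3)) (fun _ => -1) (by simp) v
    refine ⟨c, hc.trans (Finset.sum_congr rfl fun i _ => ?_)⟩
    rw [neg_one_smul]
    rfl
  · exact Av1_span d hd _ _ v
  · obtain ⟨c, hc⟩ :=
      span_revA _ (Av0_span d hd (p 0 ^ 3) (p 1 ^ 3)) (fun _ => -1) (by simp) v
    refine ⟨c, hc.trans (Finset.sum_congr rfl fun i _ => ?_)⟩
    rw [neg_one_smul]
    rfl

end Crest.Agent.R258
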