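import Crest.Agent.R258.Defs

/-!
PIECE 258-5.  The three sections `secB d i` of `E(1,-2)`, and they generate at every point.

`secB_isVecSec`: as for `secA`; flip of the first coordinate: `s^α = diag(X^6, X^3) s^β`, second
flip: `s^α = [[Y^-12, -Y^-2 h], [0, -Y^15]] s^β(X, Y⁻¹)`.  (All identities were checked by computer
algebra.)

`secB_span`: with `x = X^3`, `y = Y^3` the 2×2 minors `det (B_i, B_j)` are, type 0:
  `m01 = d (y - d x^2)`, `m02 = -d (1 - d^2)(1 + x^3 y)`, `m12 = d x (d y - x^2)`,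
type 1:
  `m01 = d x (x^2 y - d)`, `m02 = -d (1 - d^2)(y + x^3)`, `m12 = -d (1 - d x^2 y)`.
No common zero if `d ≠ 0`, `d^2 ≠ 1` (type 0: `y = d x^2`, `x ≠ 0` from `m02`, then
`x^2 (d^2 - 1) = 0`; type 1: `d x^2 y = 1` so `x ≠ 0`, `x^2 y = d`, `d^2 = 1`).
-/

noncomputable section
namespace Crest.Agent.R258
open Crest.AlgGeometry.QuadricBundle

theorem secB_diff (d : ℂ) (i : Fin 3) (α : Chart) (j : Fin 2) :
    Differentiable ℂ (fun p => secB d i α p j) := by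
  obtain ⟨a, b⟩ := α
  fin_cases a <;> fin_cases b <;> fin_cases i <;> fin_cases j <;>
    simp [secB, Bv0, Bv1, sgB, Fin.rev] <;> fun_prop

set_option linter.unusedSimpArgs false in
set_option maxHeartbeats 1600000 in
theorem secB_compat (d : ℂ) (i : Fin 3) (α β : Chart) (p : Fin 2 → ℂ) (hp : p ∈ overlap α β) :
    secB d i α p = lineTrans 1 (-2) α β p • (gE d α β p).mulVec (secB d i β (tau α β p)) := by
  obtain ⟨a, b⟩ := α
  obtain ⟨a', b'⟩ := β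
  obtain ⟨h0, h1⟩ := hp
  generalize hX : p 0 = X at *
  generalize hY : p 1 = Y at *
  funext j
  fin_cases i <;>
  fin_cases a <;> fin_cases b <;> fin_cases a' <;> fin_cases b' <;> fin_cases j <;>
    simp at h0 h1 <;>
    simp [secB, Bv0, Bv1, sgB, Fin.rev, lineTrans, gE, TY, DX, hh, tau, hX, hY,
      Matrix.mulVec, dotProduct, Fin.sum_univ_two, Matrix.mul_apply] <;>
    field_simp <;> ring

theorem secB_isVecSec (d : ℂ) (i : Fin 3) : IsVecSec (gE d) 1 (-2) (secB d i) :=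
  ⟨fun α j => secB_diff d i α j, fun α β p hp => secB_compat d i α β p hp⟩

/-- Cramer's rule in the plane. -/
theorem cramer2 (a b v : Fin 2 → ℂ) (h : a 0 * b 1 - a 1 * b 0 ≠ 0) :
    ∃ s t : ℂ, v = s • a + t • b := by
  obtain ⟨e, he⟩ : ∃ e : ℂ, e * (a 0 * b 1 - a 1 * b 0) = 1 := ⟨_, inv_mul_cancel₀ h⟩
  refine ⟨(v 0 * b 1 - v 1 * b 0) * e, (a 0 * v 1 - a 1 * v 0) * e, ?_⟩
  funext j
  fin_cases j
  · simp only [Fin.zero_eta, Fin.isValue, Pi.add_apply, Pi.smul_apply, smul_eq_mul]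
    linear_combination -v 0 * he
  · simp only [Fin.mk_one, Fin.isValue, Pi.add_apply, Pi.smul_apply, smul_eq_mul]
    linear_combination -v 1 * he

/-- Two of three vectors in the plane are independent. -/
theorem span_of_minor (A : Fin 3 → Fin 2 → ℂ)
    (h : A 0 0 * A 1 1 - A 0 1 * A 1 0 ≠ 0 ∨ A 0 0 * A 2 1 - A 0 1 * A 2 0 ≠ 0 ∨
      A 1 0 * A 2 1 - A 1 1 * A 2 0 ≠ 0) (v : Fin 2 → ℂ) :
    ∃ c : Fin 3 → ℂ, v = ∑ i, c i • A i := by
  rcases h with h | h | h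
  · obtain ⟨s, t, rfl⟩ := cramer2 _ _ v h
    exact ⟨![s, t, 0], by simp [Fin.sum_univ_three]⟩
  · obtain ⟨s, t, rfl⟩ := cramer2 _ _ v h
    exact ⟨![s, 0, t], by simp [Fin.sum_univ_three]⟩
  · obtain ⟨s, t, rfl⟩ := cramer2 _ _ v h
    exact ⟨![0, s, t], by simp [Fin.sum_univ_three]⟩

/-- Reversing the order and changing signs does not change the span. -/
theorem span_rev (A : Fin 3 → Fin 2 → ℂ) (v : Fin 2 → ℂ)
    (h : ∃ c : Fin 3 → ℂ, v = ∑ i, c i • A i) :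
    ∃ c : Fin 3 → ℂ, v = ∑ i, c i • (sgB i • A (Fin.rev i)) := by
  obtain ⟨c, rfl⟩ := h
  refine ⟨![-c 2, c 1, -c 0], ?_⟩
  simp [Fin.sum_univ_three, sgB, Fin.rev]
  abel

theorem Bv0_minor (d : ℂ) (hd0 : d ≠ 0) (hd : d ^ 2 ≠ 1) (x y : ℂ) :
    Bv0 d x y 0 0 * Bv0 d x y 1 1 - Bv0 d x y 0 1 * Bv0 d x y 1 0 ≠ 0 ∨
    Bv0 d x y 0 0 * Bv0 d x y 2 1 - Bv0 d x y 0 1 * Bv0 d x y 2 0 ≠ 0 ∨
    Bv0 d x y 1 0 * Bv0 d x y 2 1 - Bv0 d x y 1 1 * Bv0 d x y 2 0 ≠ 0 := by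
  by_contra hcon
  push Not at hcon
  obtain ⟨h01, h02, h12⟩ := hcon
  simp [Bv0] at h01 h02 h12
  have m01 : d * (y - d * x ^ 2) = 0 := by rw [← h01]; ring
  have m02 : -d * (1 - d ^ 2) * (1 + x ^ 3 * y) = 0 := by rw [← h02]; ring
  have m12 : d * x * (d * y - x ^ 2) = 0 := by rw [← h12]; ring
  have hd' : (1 - d ^ 2) ≠ 0 := fun h => hd (by linear_combination -h)
  have e1 : y = d * x ^ 2 := by
    have := (mul_eq_zero.mp m01).resolve_left hd0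
    linear_combination this
  have e2 : 1 + x ^ 3 * y = 0 :=
    (mul_eq_zero.mp m02).resolve_left (mul_ne_zero (neg_ne_zero.mpr hd0) hd')
  have hx : x ≠ 0 := by
    rintro rfl
    simp at e2
  have e3 : d * y - x ^ 2 = 0 := (mul_eq_zero.mp m12).resolve_left (mul_ne_zero hd0 hx)
  have e4 : x ^ 2 * (1 - d ^ 2) = 0 := by
    rw [e1] at e3
    linear_combination -e3
  exact (mul_ne_zero (pow_ne_zero 2 hx) hd') e4

theorem Bv1_minor (d : ℂ) (hd0 : d ≠ 0) (hd : d ^ 2 ≠ 1) (x y : ℂ) :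
    Bv1 d x y 0 0 * Bv1 d x y 1 1 - Bv1 d x y 0 1 * Bv1 d x y 1 0 ≠ 0 ∨
    Bv1 d x y 0 0 * Bv1 d x y 2 1 - Bv1 d x y 0 1 * Bv1 d x y 2 0 ≠ 0 ∨
    Bv1 d x y 1 0 * Bv1 d x y 2 1 - Bv1 d x y 1 1 * Bv1 d x y 2 0 ≠ 0 := by
  by_contra hcon
  push Not at hcon
  obtain ⟨h01, h02, h12⟩ := hcon
  simp [Bv1] at h01 h02 h12
  have m01 : d * x * (x ^ 2 * y - d) = 0 := by rw [← h01]; ring
  have m12 : -d * (1 - d * x ^ 2 * y) = 0 := by rw [← h12]; ring
  have e1 : 1 - d * x ^ 2 * y = 0 := (mul_eq_zero.mp m12).resolve_left (neg_ne_zero.mpr hd0)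
  have hx : x ≠ 0 := by
    rintro rfl
    simp at e1
  have e3 : x ^ 2 * y - d = 0 := (mul_eq_zero.mp m01).resolve_left (mul_ne_zero hd0 hx)
  exact hd (by linear_combination -e1 - d * e3)

theorem secB_span (d : ℂ) (hd0 : d ≠ 0) (hd : d ^ 2 ≠ 1) (α : Chart) (p v : Fin 2 → ℂ) :
    ∃ c : Fin 3 → ℂ, v = ∑ i, c i • secB d i α p := by
  obtain ⟨a, b⟩ := α
  have h0 := span_of_minor _ (Bv0_minor d hd0 hd (p 0 ^ 3) (p 1 ^ 3)) v
  have h1 := span_of_minor _ (Bv1_minor d hd0 hd (p 0 ^ 3) (p 1 ^ 3)) v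
  fin_cases b
  · fin_cases a
    · simpa [secB] using h0
    · simpa [secB] using h1
  · fin_cases a
    · simpa [secB] using span_rev _ v h1
    · simpa [secB] using span_rev _ v h0

end Crest.Agent.R258
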