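import Crest.Agent.R258.TwSec
import Crest.Agent.R258.HomogDecomp
import Crest.Agent.R258.SecA
import Crest.Agent.R258.SecB

/-!
PIECE 258-16 (helper50).  `gE d` is ample for `d ≠ 0`, `d^2 ≠ 1`.
-/

noncomputable section
namespace Crest.Agent.R258
open Crest.AlgGeometry.QuadricBundle

theorem lin_add (v w : Fin 2 → ℂ) : lin (v + w) = lin v + lin w := by
  simp only [lin, Pi.add_apply, map_add]; ring

theorem lin_smul (c : ℂ) (v : Fin 2 → ℂ) : lin (c • v) = c • lin v := by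
  simp only [lin, Pi.smul_apply, smul_eq_mul, map_mul, MvPolynomial.smul_eq_C_mul]; ring

theorem lin_eps_zero : lin (eps 0) = MvPolynomial.X 0 := by
  simp [lin, eps]

theorem lin_eps_one : lin (eps 1) = MvPolynomial.X 1 := by
  simp [lin, eps]

/-- combination of three vector sections -/
theorem exists_lin_sec {g : Transition 2} {a b : ℤ}
    (s : Fin 3 → Chart → (Fin 2 → ℂ) → (Fin 2 → ℂ)) (hs : ∀ i, IsVecSec g a b (s i))
    (α : Chart) (p v : Fin 2 → ℂ) (hv : ∃ c : Fin 3 → ℂ, v = ∑ i, c i • s i α p) :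
    ∃ Q, IsTwSec g 1 a b Q ∧ Q α p = lin v := by
  obtain ⟨c, hc⟩ := hv
  refine ⟨fun β q => (c 0 • lin (s 0 β q) + c 1 • lin (s 1 β q)) + c 2 • lin (s 2 β q),
    (((IsTwSec.ofVec (hs 0)).smul (c 0)).add ((IsTwSec.ofVec (hs 1)).smul (c 1))).add
      ((IsTwSec.ofVec (hs 2)).smul (c 2)), ?_⟩
  rw [hc, Fin.sum_univ_three, lin_add, lin_add, lin_smul, lin_smul, lin_smul]

theorem exists_secA (d : ℂ) (hd : d ^ 2 ≠ 1) (α : Chart) (p v : Fin 2 → ℂ) :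
    ∃ Q, IsTwSec (gE d) 1 (-2) 1 Q ∧ Q α p = lin v :=
  exists_lin_sec _ (secA_isVecSec d) α p v (secA_span d hd α p v)

theorem exists_secB (d : ℂ) (hd0 : d ≠ 0) (hd : d ^ 2 ≠ 1) (α : Chart) (p v : Fin 2 → ℂ) :
    ∃ Q, IsTwSec (gE d) 1 1 (-2) Q ∧ Q α p = lin v :=
  exists_lin_sec _ (secB_isVecSec d) α p v (secB_span d hd0 hd α p v)

/-- one step: multiply by linear forms -/
theorem exists_step {g : Transition 2} {n : ℕ} {a b a' b' : ℤ} {α : Chart} {p : Fin 2 → ℂ}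
    (hL : ∀ v, ∃ Q, IsTwSec g 1 a b Q ∧ Q α p = lin v)
    (hn : ∀ R : MvPolynomial (Fin 2) ℂ, R.IsHomogeneous n → ∃ Q, IsTwSec g n a' b' Q ∧ Q α p = R)
    (R : MvPolynomial (Fin 2) ℂ) (hR : R.IsHomogeneous (n + 1)) :
    ∃ Q, IsTwSec g (n + 1) (a + a') (b + b') Q ∧ Q α p = R := by
  obtain ⟨R₀, R₁, h₀, h₁, rfl⟩ := homog_decomp hR
  obtain ⟨Q₀, hQ₀, e₀⟩ := hn R₀ h₀
  obtain ⟨Q₁, hQ₁, e₁⟩ := hn R₁ h₁
  obtain ⟨L₀, hL₀, f₀⟩ := hL (eps 0)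
  obtain ⟨L₁, hL₁, f₁⟩ := hL (eps 1)
  have key := (hL₀.mul hQ₀).add (hL₁.mul hQ₁)
  rw [add_comm 1 n] at key
  refine ⟨_, key, ?_⟩
  simp only [e₀, e₁, f₀, f₁, lin_eps_zero, lin_eps_one]

theorem exists_sec (d : ℂ) (hd0 : d ≠ 0) (hd : d ^ 2 ≠ 1) (α : Chart) (p : Fin 2 → ℂ) (P N : ℕ) :
    ∀ R : MvPolynomial (Fin 2) ℂ, R.IsHomogeneous (P + N) →
      ∃ Q, IsTwSec (gE d) (P + N) (-2 * P + N) (P - 2 * N) Q ∧ Q α p = R := by
  induction P with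
  | zero =>
    induction N with
    | zero =>
      intro R hR
      obtain ⟨Q, hQ, hQ1⟩ := IsTwSec.line (gE d) 0 0 α
      have hR' : R.IsHomogeneous 0 := by simpa using hR
      obtain ⟨c, hc⟩ : ∃ c, R = MvPolynomial.C c := by
        refine ⟨MvPolynomial.coeff 0 R, ?_⟩
        have h0 := hR'.totalDegree_le
        exact (MvPolynomial.totalDegree_eq_zero_iff_eq_C).1 (Nat.le_zero.1 h0)
      refine ⟨fun β q => c • Q β q, ?_, ?_⟩
      · simpa using hQ.smul c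
      · simp only [hQ1, hc, MvPolynomial.smul_eq_C_mul, mul_one]
    | succ N ih =>
      intro R hR
      have := exists_step (exists_secB d hd0 hd α p) ih R (by simpa [add_assoc] using hR)
      obtain ⟨Q, hQ, e⟩ := this
      refine ⟨Q, ?_, e⟩
      have e1 : (1 : ℤ) + (-2 * ((0 : ℕ) : ℤ) + (N : ℤ)) = -2 * ((0 : ℕ) : ℤ) + ((N + 1 : ℕ) : ℤ) := by
        push_cast; ring
      have e2 : (-2 : ℤ) + (((0 : ℕ) : ℤ) - 2 * (N : ℤ)) = ((0 : ℕ) : ℤ) - 2 * ((N + 1 : ℕ) : ℤ) := by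
        push_cast; ring
      rw [e1, e2] at hQ
      exact hQ
  | succ P ih =>
    intro R hR
    have e0 : P + 1 + N = (P + N) + 1 := by ring
    rw [e0] at hR ⊢
    obtain ⟨Q, hQ, e⟩ := exists_step (exists_secA d hd α p) ih R hR
    refine ⟨Q, ?_, e⟩
    have e1 : (-2 : ℤ) + (-2 * (P : ℤ) + (N : ℤ)) = -2 * ((P + 1 : ℕ) : ℤ) + (N : ℤ) := by
      push_cast; ring
    have e2 : (1 : ℤ) + ((P : ℤ) - 2 * (N : ℤ)) = ((P + 1 : ℕ) : ℤ) - 2 * (N : ℤ) := by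
      push_cast; ring
    rw [e1, e2] at hQ
    exact hQ

theorem gE_ample (d : ℂ) (hd0 : d ≠ 0) (hd : d ^ 2 ≠ 1) : IsAmple (gE d) := by
  intro k
  refine ⟨2 * k + 3, ?_⟩
  intro n hn α p R hR
  obtain ⟨P, N, hPN, h1, h2⟩ : ∃ P N : ℕ, P + N = n ∧ N + k ≤ 2 * P ∧ P + k ≤ 2 * N := by
    refine ⟨n / 2, n - n / 2, ?_, ?_, ?_⟩ <;> omega
  subst hPN
  obtain ⟨Q, hQ, e⟩ := exists_sec d hd0 hd α p P N R hR
  obtain ⟨L, hL, hL1⟩ := IsTwSec.line (gE d) (2 * P - N - k) (2 * N - P - k) α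
  have key := hL.mul hQ
  have e1 : (((2 * P - N - k : ℕ) : ℤ)) + (-2 * (P : ℤ) + (N : ℤ)) = -(k : ℤ) := by
    have : ((2 * P - N - k : ℕ) : ℤ) = 2 * P - N - k := by omega
    rw [this]; ring
  have e2 : (((2 * N - P - k : ℕ) : ℤ)) + ((P : ℤ) - 2 * (N : ℤ)) = -(k : ℤ) := by
    have : ((2 * N - P - k : ℕ) : ℤ) = 2 * N - P - k := by omega
    rw [this]; ring
  rw [e1, e2, zero_add] at key
  refine ⟨_, key.toGlobal, ?_⟩
  simp only [hL1, e, one_mul]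

end Crest.Agent.R258
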