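import Crest.Agent.R258.Defs

/-!
PIECE 258-10.  Basic facts about `Bd`.
-/

noncomputable section
namespace Crest.Agent.R258
open Crest.AlgGeometry.QuadricBundle
open scoped ComplexOrder

variable {H : MetricData 2} {α β : Chart} {p : Fin 2 → ℂ} {w w' : Fin 2 → ℂ} {K K' M : ℝ}

theorem hNormSq_eq (H : MetricData 2) (α : Chart) (p v : Fin 2 → ℂ) :
    hNormSq H α p v = (star (star v) ⬝ᵥ ((H α p).mulVec (star v))).re := by
  simp only [hNormSq, dotProduct, Matrix.mulVec, Fin.sum_univ_two, Pi.star_apply, RCLike.star_def,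
    Complex.conj_conj]
  congr 1
  ring

theorem hNormSq_pos (hpos : (H α p).PosDef) {v : Fin 2 → ℂ} (hv : v ≠ 0) :
    0 < hNormSq H α p v := by
  rw [hNormSq_eq]
  have hv' : star v ≠ 0 := by simpa using hv
  have := hpos.dotProduct_mulVec_pos hv'
  exact (Complex.pos_iff.1 this).1

theorem hNormSq_nonneg (hpos : (H α p).PosDef) (v : Fin 2 → ℂ) :
    0 ≤ hNormSq H α p v := by
  rcases eq_or_ne v 0 with rfl | hv
  · simp [hNormSq]
  · exact (hNormSq_pos hpos hv).le

theorem cov_add (w w' v : Fin 2 → ℂ) : cov (w + w') v = cov w v + cov w' v := by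
  simp only [cov, Pi.add_apply]; ring

theorem cov_smul (c : ℂ) (w v : Fin 2 → ℂ) : cov (c • w) v = c * cov w v := by
  simp only [cov, Pi.smul_apply, smul_eq_mul]; ring

theorem Bd.add (h : Bd H α p w K) (h' : Bd H α p w' K') : Bd H α p (w + w') (K + K') := by
  intro v
  rw [cov_add, add_mul]
  exact (norm_add_le _ _).trans (add_le_add (h v) (h' v))

theorem Bd.smul (c : ℂ) (h : Bd H α p w K) : Bd H α p (c • w) (‖c‖ * K) := by
  intro v
  rw [cov_smul, norm_mul, mul_assoc]
  exact mul_le_mul_of_nonneg_left (h v) (norm_nonneg _)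

theorem Bd.mono (h : Bd H α p w K) (hK : K ≤ K') : Bd H α p w K' := by
  intro v
  exact (h v).trans (mul_le_mul_of_nonneg_right hK (Real.sqrt_nonneg _))

/-- if both basis covectors have norm `≤ M` then `w` has norm `≤ (|w 0| + |w 1|) M` -/
theorem Bd.comb (h : ∀ i, Bd H α p (eps i) M) (w : Fin 2 → ℂ) :
    Bd H α p w ((‖w 0‖ + ‖w 1‖) * M) := by
  have key := ((h 0).smul (w 0)).add ((h 1).smul (w 1))
  have e : w 0 • eps 0 + w 1 • eps 1 = w := by
    ext j
    fin_cases j <;> simp [eps]
  rw [e, ← add_mul] at key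
  exact key

theorem hNormSq_transition {g : Transition 2} (hH : IsHermitianMetric g H)
    (hp : p ∈ overlap α β) (v : Fin 2 → ℂ) :
    hNormSq H β (tau α β p) v = hNormSq H α p ((g α β p).mulVec v) := by
  unfold hNormSq
  rw [hH.compat α β p hp]
  congr 1
  simp only [Matrix.mul_apply, Matrix.mulVec, dotProduct, Fin.sum_univ_two, Matrix.transpose_apply,
    Matrix.map_apply, map_add, map_mul]
  ring

theorem tau_mem_overlap (hp : p ∈ overlap α β) : tau α β p ∈ overlap β α := by
  obtain ⟨h1, h2⟩ := hp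
  refine ⟨fun h => ?_, fun h => ?_⟩
  · have h' : α.1 ≠ β.1 := fun e => h e.symm
    have := h1 h'
    simp [tau, h', this]
  · have h' : α.2 ≠ β.2 := fun e => h e.symm
    have := h2 h'
    simp [tau, h', this]

theorem tau_tau (α β : Chart) (p : Fin 2 → ℂ) : tau β α (tau α β p) = p := by
  ext i
  fin_cases i
  · by_cases h : α.1 = β.1
    · simp [tau, h]
    · have h' : β.1 ≠ α.1 := fun e => h e.symm
      simp [tau, h, h']
  · by_cases h : α.2 = β.2
    · simp [tau, h]
    · have h' : β.2 ≠ α.2 := fun e => h e.symm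
      simp [tau, h, h']

theorem Bd.of_transition {g : Transition 2} (hg : IsHoloCocycle g) (hH : IsHermitianMetric g H)
    (hp : p ∈ overlap α β)
    (h : Bd H β (tau α β p) ((g α β p).transpose.mulVec w) K) : Bd H α p w K := by
  intro v
  set v' := (g β α (tau α β p)).mulVec v with hv'
  have hpa : p ∈ overlap α α := by
    constructor <;> intro h <;> exact absurd rfl h
  have h1 : (g α β p).mulVec v' = v := by
    rw [hv', Matrix.mulVec_mulVec, hg.cocycle α β α p ⟨hp, hpa⟩, hg.refl, Matrix.one_mulVec]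
  have h2 := h v'
  rw [hNormSq_transition hH hp, h1] at h2
  have h3 : cov ((g α β p).transpose.mulVec w) v' = cov w v := by
    rw [← h1]
    simp only [cov, Matrix.mulVec, dotProduct, Fin.sum_univ_two, Matrix.transpose_apply]
    ring
  rw [h3] at h2
  exact h2

end Crest.Agent.R258
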