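import Crest.Agent.R258.BdBasic

/-!
PIECE 258-11.  Existence of an a-priori bound, and the final contradiction.

`AllBd_exists`: for each of the four charts, `hNormSq H α p v` is continuous and positive on the
compact set `{‖p 0‖ ≤ 1, ‖p 1‖ ≤ 1} × {‖v‖ = 1}`, so it has a positive lower bound `c_α`; by homogeneity
`hNormSq H α p v ≥ c ‖v‖²` (sup norm on `Fin 2 → ℂ`), and `‖cov (eps i) v‖ = ‖v i‖ ≤ ‖v‖`.  So
`M = 1/√c` works.
`AllBd_false`: apply `AllBd` with `v = eps 0` at `p = 0`: `1 ≤ (M / 2^n) * √(hNormSq ..)` for all `n`.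
`AllBd_nonneg`: likewise `0 ≤ M`.
-/

noncomputable section
namespace Crest.Agent.R258
open Crest.AlgGeometry.QuadricBundle
open scoped ComplexOrder

variable {H : MetricData 2} {M : ℝ}

theorem cov_eps (i : Fin 2) (v : Fin 2 → ℂ) : cov (eps i) v = v i := by
  fin_cases i <;> simp [cov, eps]

theorem hNormSq_smul (H : MetricData 2) (α : Chart) (p v : Fin 2 → ℂ) (c : ℝ) :
    hNormSq H α p ((c : ℂ) • v) = c ^ 2 * hNormSq H α p v := by
  unfold hNormSq
  simp only [Fin.sum_univ_two, Pi.smul_apply, smul_eq_mul, map_mul, Complex.conj_ofReal]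
  rw [← Complex.re_ofReal_mul]
  congr 1
  push_cast
  ring

theorem hNormSq_continuous {g : Transition 2} (hH : IsHermitianMetric g H) (α : Chart) :
    Continuous (fun q : (Fin 2 → ℂ) × (Fin 2 → ℂ) => hNormSq H α q.1 q.2) := by
  unfold hNormSq
  refine Complex.continuous_re.comp ?_
  refine continuous_finset_sum _ fun i _ => continuous_finset_sum _ fun j _ => ?_
  have h1 : Continuous (fun q : (Fin 2 → ℂ) × (Fin 2 → ℂ) => H α q.1 i j) :=
    (hH.smooth α i j).continuous.comp continuous_fst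
  have h2 : Continuous (fun q : (Fin 2 → ℂ) × (Fin 2 → ℂ) => q.2 i) :=
    (continuous_apply i).comp continuous_snd
  have h3 : Continuous (fun q : (Fin 2 → ℂ) × (Fin 2 → ℂ) => (starRingEnd ℂ) (q.2 j)) :=
    Complex.continuous_conj.comp ((continuous_apply j).comp continuous_snd)
  exact (h1.mul h2).mul h3

theorem Bd_exists_chart {g : Transition 2} (hH : IsHermitianMetric g H) (α : Chart) :
    ∃ M : ℝ, 0 ≤ M ∧ ∀ p : Fin 2 → ℂ, ‖p 0‖ ≤ 1 → ‖p 1‖ ≤ 1 → ∀ i, Bd H α p (eps i) M := by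
  have hK : IsCompact ((Metric.closedBall (0 : Fin 2 → ℂ) 1) ×ˢ (Metric.sphere (0 : Fin 2 → ℂ) 1)) :=
    (isCompact_closedBall _ _).prod (isCompact_sphere _ _)
  have hne : ((Metric.closedBall (0 : Fin 2 → ℂ) 1) ×ˢ (Metric.sphere (0 : Fin 2 → ℂ) 1)).Nonempty := by
    refine ⟨(0, fun _ => 1), ?_, ?_⟩
    · simp
    · simp
  obtain ⟨⟨p₀, v₀⟩, hmem, hmin⟩ := hK.exists_isMinOn hne (hNormSq_continuous hH α).continuousOn
  have hv₀ : v₀ ≠ 0 := by
    rintro rfl
    simp at hmem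
  have hc : 0 < hNormSq H α p₀ v₀ := hNormSq_pos (hH.posDef α p₀) hv₀
  set c := hNormSq H α p₀ v₀ with hcdef
  refine ⟨(Real.sqrt c)⁻¹, by positivity, ?_⟩
  intro p hp0 hp1 i v
  rw [cov_eps]
  have hpball : p ∈ Metric.closedBall (0 : Fin 2 → ℂ) 1 := by
    rw [mem_closedBall_zero_iff, pi_norm_le_iff_of_nonneg zero_le_one]
    intro j
    fin_cases j
    · exact hp0
    · exact hp1
  have hkey : c * ‖v‖ ^ 2 ≤ hNormSq H α p v := by
    by_cases hv : v = 0
    · subst hv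
      simp [hNormSq]
    · have hvn : 0 < ‖v‖ := norm_pos_iff.mpr hv
      have hmem' : ((p, (((‖v‖⁻¹ : ℝ) : ℂ)) • v) : (Fin 2 → ℂ) × (Fin 2 → ℂ)) ∈
          ((Metric.closedBall (0 : Fin 2 → ℂ) 1) ×ˢ (Metric.sphere (0 : Fin 2 → ℂ) 1)) := by
        refine ⟨hpball, ?_⟩
        rw [mem_sphere_zero_iff_norm, norm_smul, Complex.norm_real, Real.norm_eq_abs,
          abs_of_pos (inv_pos.mpr hvn)]
        exact inv_mul_cancel₀ hvn.ne'
      have h := hmin hmem'
      simp only [Set.mem_setOf_eq] at h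
      rw [hNormSq_smul] at h
      have h2 : c ≤ (‖v‖⁻¹) ^ 2 * hNormSq H α p v := h
      calc c * ‖v‖ ^ 2 ≤ ((‖v‖⁻¹) ^ 2 * hNormSq H α p v) * ‖v‖ ^ 2 := by gcongr
        _ = hNormSq H α p v := by field_simp
  have hsc : 0 < Real.sqrt c := Real.sqrt_pos.mpr hc
  have hvi : ‖v i‖ ≤ ‖v‖ := norm_le_pi_norm v i
  have h3 : Real.sqrt c * ‖v‖ ≤ Real.sqrt (hNormSq H α p v) := by
    have : Real.sqrt (c * ‖v‖ ^ 2) = Real.sqrt c * ‖v‖ := by
      rw [Real.sqrt_mul hc.le, Real.sqrt_sq (norm_nonneg v)]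
    rw [← this]
    exact Real.sqrt_le_sqrt hkey
  calc ‖v i‖ ≤ ‖v‖ := hvi
    _ = (Real.sqrt c)⁻¹ * (Real.sqrt c * ‖v‖) := by
        field_simp
    _ ≤ (Real.sqrt c)⁻¹ * Real.sqrt (hNormSq H α p v) := by
        gcongr

theorem AllBd_exists {g : Transition 2} (hH : IsHermitianMetric g H) : ∃ M, AllBd H M := by
  choose M hM0 hM using fun α => Bd_exists_chart hH α
  refine ⟨∑ α, M α, ?_⟩
  intro α p h0 h1 i
  exact (hM α p h0 h1 i).mono (Finset.single_le_sum (fun β _ => hM0 β) (Finset.mem_univ α))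

theorem AllBd_one_le (h : AllBd H M) :
    1 ≤ M * Real.sqrt (hNormSq H (0, 0) 0 (eps 0)) := by
  have h1 := h (0, 0) 0 (by simp) (by simp) 0 (eps 0)
  rw [cov_eps] at h1
  simpa [eps] using h1

theorem AllBd_nonneg (h : AllBd H M) : 0 ≤ M := by
  by_contra hM
  push_neg at hM
  have h1 := AllBd_one_le h
  have h2 : M * Real.sqrt (hNormSq H (0, 0) 0 (eps 0)) ≤ 0 :=
    mul_nonpos_of_nonpos_of_nonneg hM.le (Real.sqrt_nonneg _)
  linarith

theorem AllBd_false (h : ∀ n : ℕ, AllBd H (M / 2 ^ n)) : False := by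
  set s := Real.sqrt (hNormSq H (0, 0) 0 (eps 0)) with hs
  obtain ⟨n, hn⟩ := pow_unbounded_of_one_lt (M * s) (one_lt_two)
  have h1 := AllBd_one_le (h n)
  have h2 : M / 2 ^ n * s = (M * s) / 2 ^ n := by ring
  rw [← hs, h2, le_div_iff₀ (by positivity)] at h1
  linarith

end Crest.Agent.R258
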