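import Crest.Agent.R258.MaxPrinciple
import Crest.Agent.R258.BdBasic

/-!
PIECE 258-12.  The maximum principle in terms of `Bd`, along the coordinate lines.
-/

noncomputable section
namespace Crest.Agent.R258
open Crest.AlgGeometry.QuadricBundle
open scoped ComplexOrder

variable {H : MetricData 2} {g : Transition 2}

theorem Bd_iff_sq {α : Chart} {p w : Fin 2 → ℂ} {K : ℝ} (hK : 0 ≤ K) (hpos : (H α p).PosDef) :
    Bd H α p w K ↔ ∀ v, ‖cov w v‖ ^ 2 ≤ K ^ 2 * hNormSq H α p v := by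
  constructor
  · intro h v
    have h1 := h v
    have h2 := hNormSq_nonneg hpos v
    calc ‖cov w v‖ ^ 2 ≤ (K * Real.sqrt (hNormSq H α p v)) ^ 2 :=
          pow_le_pow_left₀ (norm_nonneg _) h1 2
      _ = K ^ 2 * hNormSq H α p v := by rw [mul_pow, Real.sq_sqrt h2]
  · intro h v
    have h1 := h v
    have h2 := hNormSq_nonneg hpos v
    apply le_of_sq_le_sq _ (mul_nonneg hK (Real.sqrt_nonneg _))
    rw [mul_pow, Real.sq_sqrt h2]
    exact h1

theorem Bd_maxY (hH : IsHermitianMetric g H) (hG : IsGriffithsPositive H) (α : Chart) (X : ℂ)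
    (w : ℂ → Fin 2 → ℂ) (hw : ∀ i, Differentiable ℂ (fun z => w z i))
    (ρ K : ℝ) (hρ : 0 < ρ) (hK : 0 ≤ K)
    (hb : ∀ Y : ℂ, ‖Y‖ = ρ → Bd H α ![X, Y] (w Y) K) :
    ∀ Y : ℂ, ‖Y‖ ≤ ρ → Bd H α ![X, Y] (w Y) K := by
  have e : ∀ z : ℂ, (![X, 0] : Fin 2 → ℂ) + z • ![0, 1] = ![X, z] := by
    intro z; ext i; fin_cases i <;> simp
  have hξ : (![0, 1] : Fin 2 → ℂ) ≠ 0 := by
    intro h; have := congrFun h 1; simp at this
  have key := max_principle H α (hH.smooth α) (hH.posDef α) hG ![X, 0] ![0, 1] hξ w hw ρ (K ^ 2)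
    hρ (sq_nonneg K) (by
      intro z hz
      rw [e z]
      exact (Bd_iff_sq hK (hH.posDef α _)).1 (hb z hz))
  intro Y hY
  rw [Bd_iff_sq hK (hH.posDef α _)]
  have := key Y hY
  rw [e Y] at this
  exact this

theorem Bd_maxX (hH : IsHermitianMetric g H) (hG : IsGriffithsPositive H) (α : Chart) (Y : ℂ)
    (w : ℂ → Fin 2 → ℂ) (hw : ∀ i, Differentiable ℂ (fun z => w z i))
    (ρ K : ℝ) (hρ : 0 < ρ) (hK : 0 ≤ K)
    (hb : ∀ X : ℂ, ‖X‖ = ρ → Bd H α ![X, Y] (w X) K) :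
    ∀ X : ℂ, ‖X‖ ≤ ρ → Bd H α ![X, Y] (w X) K := by
  have e : ∀ z : ℂ, (![0, Y] : Fin 2 → ℂ) + z • ![1, 0] = ![z, Y] := by
    intro z; ext i; fin_cases i <;> simp
  have hξ : (![1, 0] : Fin 2 → ℂ) ≠ 0 := by
    intro h; have := congrFun h 0; simp at this
  have key := max_principle H α (hH.smooth α) (hH.posDef α) hG ![0, Y] ![1, 0] hξ w hw ρ (K ^ 2)
    hρ (sq_nonneg K) (by
      intro z hz
      rw [e z]
      exact (Bd_iff_sq hK (hH.posDef α _)).1 (hb z hz))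
  intro X hX
  rw [Bd_iff_sq hK (hH.posDef α _)]
  have := key X hX
  rw [e X] at this
  exact this

end Crest.Agent.R258
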