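import Crest.Agent.R258.Defs

/-!
PIECE 258-1.  `gE d` is a holomorphic cocycle.
-/

noncomputable section
namespace Crest.Agent.R258
open Crest.AlgGeometry.QuadricBundle

theorem gE_refl (d : ℂ) (α : Chart) (p : Fin 2 → ℂ) : gE d α α p = 1 := by
  simp [gE]

theorem fin2_eq_of_ne {a b c : Fin 2} (h1 : a ≠ b) (h2 : b ≠ c) : a = c := by
  revert a b c; decide

/-- `DX` at the flipped point is the inverse -/
theorem DX_mul_flip (p q : Fin 2 → ℂ) (h0 : p 0 ≠ 0) (hq : q 0 = (p 0)⁻¹) :
    DX p * DX q = 1 := by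
  ext i j
  fin_cases i <;> fin_cases j <;> simp [DX, Matrix.mul_apply, hq, h0]

theorem hh_flipY (d : ℂ) (α β : Chart) (X Y : ℂ) (hY : Y ≠ 0) (h1 : α.1 = β.1)
    (h2 : α.2 ≠ β.2) : hh d α X Y = Y ^ 7 * hh d β X Y⁻¹ := by
  obtain ⟨a, b⟩ := α
  obtain ⟨a', b'⟩ := β
  simp only at h1 h2
  subst h1
  fin_cases a <;> fin_cases b <;> fin_cases b' <;> simp_all [hh] <;> field_simp <;> ring

theorem hh_flipX (d : ℂ) (α β : Chart) (X Y : ℂ) (hX : X ≠ 0) (h1 : α.1 ≠ β.1)
    (h2 : α.2 = β.2) : hh d α X Y = X ^ 3 * hh d β X⁻¹ Y := by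
  obtain ⟨a, b⟩ := α
  obtain ⟨a', b'⟩ := β
  simp only at h1 h2
  subst h2
  fin_cases a <;> fin_cases b <;> fin_cases a' <;> simp_all [hh] <;> field_simp <;> ring

theorem hh_congr (d : ℂ) (α β : Chart) (X Y : ℂ) (h1 : α.1 ≠ β.1)
    (h2 : α.2 ≠ β.2) : hh d α X Y = hh d β X Y := by
  obtain ⟨a, b⟩ := α
  obtain ⟨a', b'⟩ := β
  simp only at h1 h2
  fin_cases a <;> fin_cases b <;> fin_cases a' <;> fin_cases b' <;> simp_all [hh]

theorem TY_mul_flip (d : ℂ) (α β : Chart) (p q : Fin 2 → ℂ) (hY : p 1 ≠ 0)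
    (h1 : α.1 = β.1) (h2 : α.2 ≠ β.2) (hq0 : q 0 = p 0) (hq1 : q 1 = (p 1)⁻¹) :
    TY d α p * TY d β q = 1 := by
  have key := hh_flipY d α β (p 0) (p 1) hY h1 h2
  ext i j
  fin_cases i <;> fin_cases j <;> simp [TY, Matrix.mul_apply, hq0, hq1, hY, key]
  field_simp
  ring

theorem DX_TY_comm (d : ℂ) (α β : Chart) (p q : Fin 2 → ℂ) (hX : p 0 ≠ 0)
    (h1 : α.1 ≠ β.1) (h2 : α.2 = β.2) (hq0 : q 0 = (p 0)⁻¹) (hq1 : q 1 = p 1) :
    DX p * TY d β q = TY d α p * DX p := by
  have key := hh_flipX d α β (p 0) (p 1) hX h1 h2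
  ext i j
  fin_cases i <;> fin_cases j <;> simp [TY, DX, Matrix.mul_apply, hq0, hq1, key] <;> ring

theorem DX_tau (p q : Fin 2 → ℂ) (h : q 0 = p 0) : DX q = DX p := by
  simp [DX, h]

theorem TY_congr (d : ℂ) (α β : Chart) (p q : Fin 2 → ℂ) (h1 : α.1 = β.1) (h2 : α.2 = β.2)
    (h0 : q 0 = p 0) (h1' : q 1 = p 1) : TY d β q = TY d α p := by
  have : α = β := Prod.ext h1 h2
  subst this
  simp [TY, h0, h1']

theorem gE_coc (d : ℂ) (α β γ : Chart) (p : Fin 2 → ℂ) (hp : p ∈ overlap α β ∩ overlap α γ) :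
    gE d α β p * gE d β γ (tau α β p) = gE d α γ p := by
  obtain ⟨⟨hX1, hY1⟩, ⟨hX2, hY2⟩⟩ := hp
  obtain ⟨a1, a2⟩ := α
  obtain ⟨b1, b2⟩ := β
  obtain ⟨c1, c2⟩ := γ
  simp only at hX1 hY1 hX2 hY2
  by_cases hab1 : a1 = b1
  · subst hab1
    by_cases hab2 : a2 = b2
    · subst hab2
      have : tau (a1, a2) (a1, a2) p = p := by
        ext i; fin_cases i <;> simp [tau]
      rw [this, gE_refl, one_mul]
    · by_cases hbc2 : b2 = c2
      · subst hbc2
        simp only [gE, hab2, if_true, if_false, mul_one, one_mul]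
        rw [DX_tau p (tau (a1, a2) (a1, b2) p) (by simp [tau])]
      · have hac2 : a2 = c2 := fin2_eq_of_ne hab2 hbc2
        subst hac2
        have hba2 : ¬ b2 = a2 := fun h => hab2 h.symm
        simp only [gE, hab2, hba2, if_true, if_false, mul_one, one_mul]
        rw [← mul_assoc, TY_mul_flip d (a1, a2) (a1, b2) p (tau (a1, a2) (a1, b2) p) (hY1 hab2) rfl
          hab2 (by simp [tau]) (by simp [tau, hab2]), one_mul,
          DX_tau p (tau (a1, a2) (a1, b2) p) (by simp [tau])]
  · have hX := hX1 hab1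
    by_cases hab2 : a2 = b2
    · subst hab2
      by_cases hbc2 : a2 = c2
      · subst hbc2
        by_cases hbc1 : b1 = c1
        · subst hbc1
          simp [gE, hab1]
        · have hac1 : a1 = c1 := fin2_eq_of_ne hab1 hbc1
          subst hac1
          simp only [gE, hab1, hbc1, if_true, if_false, mul_one, one_mul]
          exact DX_mul_flip p _ hX (by simp [tau, hab1])
      · simp only [gE, hab1, hbc2, if_true, if_false, one_mul]
        rw [← mul_assoc, DX_TY_comm d (a1, a2) (b1, a2) p _ hX hab1 rfl (by simp [tau, hab1])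
          (by simp [tau]), mul_assoc]
        congr 1
        by_cases hbc1 : b1 = c1
        · subst hbc1
          simp [hab1]
        · have hac1 : a1 = c1 := fin2_eq_of_ne hab1 hbc1
          subst hac1
          simp only [hbc1, if_true, if_false]
          exact DX_mul_flip p _ hX (by simp [tau, hab1])
    · have hY := hY1 hab2
      by_cases hbc2 : b2 = c2
      · subst hbc2
        simp only [gE, hab1, hab2, if_true, if_false, one_mul]
        rw [mul_assoc]
        congr 1
        by_cases hbc1 : b1 = c1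
        · subst hbc1
          simp [hab1]
        · have hac1 : a1 = c1 := fin2_eq_of_ne hab1 hbc1
          subst hac1
          simp only [hbc1, if_true, if_false]
          exact DX_mul_flip p _ hX (by simp [tau, hab1])
      · have hac2 : a2 = c2 := fin2_eq_of_ne hab2 hbc2
        subst hac2
        have hba2 : ¬ b2 = a2 := fun h => hab2 h.symm
        simp only [gE, hab1, hab2, hba2, if_true, if_false, one_mul]
        have e1 : DX p * TY d (b1, b2) (tau (a1, a2) (b1, b2) p) =
            TY d (a1, b2) (tau (a1, a2) (a1, b2) p) * DX (tau (a1, a2) (a1, b2) p) := by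
          rw [← DX_TY_comm d (a1, b2) (b1, b2) (tau (a1, a2) (a1, b2) p)
            (tau (a1, a2) (b1, b2) p) (by simpa [tau] using hX) hab1 rfl (by simp [tau, hab1])
            (by simp [tau, hab2]), DX_tau p (tau (a1, a2) (a1, b2) p) (by simp [tau])]
        rw [← mul_assoc, mul_assoc (TY d (a1, a2) p) (DX p), e1, ← mul_assoc,
          TY_mul_flip d (a1, a2) (a1, b2) p (tau (a1, a2) (a1, b2) p) hY rfl
          hab2 (by simp [tau]) (by simp [tau, hab2]), one_mul,
          DX_tau p (tau (a1, a2) (a1, b2) p) (by simp [tau])]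
        by_cases hbc1 : b1 = c1
        · subst hbc1
          simp [hab1]
        · have hac1 : a1 = c1 := fin2_eq_of_ne hab1 hbc1
          subst hac1
          simp only [hbc1, if_true, if_false]
          exact DX_mul_flip p _ hX (by simp [tau, hab1])

theorem gE_holo (d : ℂ) (α β : Chart) (i j : Fin 2) :
    DifferentiableOn ℂ (fun p => gE d α β p i j) (overlap α β) := by
  by_cases h2 : α.2 = β.2
  · by_cases h1 : α.1 = β.1
    · simp only [gE, h1, h2, if_true, mul_one]
      exact differentiableOn_const _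
    · simp only [gE, h1, h2, if_true, if_false, one_mul]
      fin_cases i <;> fin_cases j <;> simp [DX] <;> fun_prop
  · have hY : ∀ p ∈ overlap α β, p 1 ≠ 0 := fun p hp => hp.2 h2
    have hT : ∀ i j, DifferentiableOn ℂ (fun p => TY d α p i j) (overlap α β) := by
      intro i j
      have hinv : DifferentiableOn ℂ (fun p : Fin 2 → ℂ => (p 1)⁻¹) (overlap α β) :=
        DifferentiableOn.inv (by fun_prop) hY
      fin_cases i <;> fin_cases j
      · simp only [TY, Matrix.of_apply, Matrix.cons_val', Fin.zero_eta, Matrix.cons_val_zero,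
          Matrix.cons_val_fin_one]
        exact hinv.pow 10
      · have hX0 : DifferentiableOn ℂ (fun p : Fin 2 → ℂ => p 0) (overlap α β) := by fun_prop
        have hY0 : DifferentiableOn ℂ (fun p : Fin 2 → ℂ => p 1) (overlap α β) := by fun_prop
        have hd : DifferentiableOn ℂ (fun _ : Fin 2 → ℂ => d) (overlap α β) :=
          differentiableOn_const d
        by_cases h : α.1 = α.2
        · refine DifferentiableOn.congr (f := fun p => -((p 1) ^ 8 + d * ((p 1)⁻¹) ^ 7 +
            (p 0) ^ 3 * ((p 1)⁻¹ + d * (p 1) ^ 14))) ?_ (fun p _ => by simp [TY, hh, h])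
          exact (((hY0.pow 8).add (hd.mul (hinv.pow 7))).add
            ((hX0.pow 3).mul (hinv.add (hd.mul (hY0.pow 14))))).neg
        · refine DifferentiableOn.congr (f := fun p => -((p 0) ^ 3 * ((p 1) ^ 8 +
            d * ((p 1)⁻¹) ^ 7) + (p 1)⁻¹ + d * (p 1) ^ 14)) ?_ (fun p _ => by simp [TY, hh, h])
          exact ((((hX0.pow 3).mul ((hY0.pow 8).add (hd.mul (hinv.pow 7)))).add hinv).add
            (hd.mul (hY0.pow 14))).neg
      · simp [TY]
      · simp [TY]
        fun_prop
    by_cases h1 : α.1 = β.1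
    · simp only [gE, h1, h2, if_true, if_false, mul_one]
      exact hT i j
    · simp only [gE, h1, h2, if_false, Matrix.mul_apply, Fin.sum_univ_two]
      have hD : ∀ i j, DifferentiableOn ℂ (fun p : Fin 2 → ℂ => DX p i j) (overlap α β) := by
        intro i j
        fin_cases i <;> fin_cases j <;> simp [DX] <;> fun_prop
      exact ((hT i 0).mul (hD 0 j)).add ((hT i 1).mul (hD 1 j))

theorem gE_cocycle (d : ℂ) : IsHoloCocycle (gE d) :=
  ⟨gE_refl d, gE_holo d, gE_coc d⟩

end Crest.Agent.R258
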