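import Crest.Agent.R258.Defs

/-!
PIECE 258-7.  Smoothness of `t ↦ |s|²_H` along a real line for a holomorphic local section `s`.

`hNormSq H α q (s q) = re (∑ i j, H α q i j * s q i * conj (s q j))`.  Along `q = p + t • η` (`t` real)
the entries `H α q i j` are `C^∞` in `t` (composition of the `ContDiff ℝ ⊤` hypothesis with an affine
map), and `z ↦ s (p + z • η)` is complex differentiable on the open set `{z | p + z • η ∈ U} ∋ 0` of
`ℂ`, hence analytic, hence `ContDiffAt ℂ 2`, `ContDiffAt ℝ 2` (`ContDiffAt.restrict_scalars`),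
composed with `t ↦ (t : ℂ)`; `conj` and `re` are real linear.
-/

noncomputable section
namespace Crest.Agent.R258
open Crest.AlgGeometry.QuadricBundle

theorem hNormSq_line_contDiffAt (H : MetricData 2) (α : Chart)
    (hH : ∀ i j : Fin 2, ContDiff ℝ (⊤ : ℕ∞) (fun p => H α p i j))
    {p : Fin 2 → ℂ} {U : Set (Fin 2 → ℂ)} (hU : IsOpen U) (hp : p ∈ U)
    {s : (Fin 2 → ℂ) → (Fin 2 → ℂ)} (hs : DifferentiableOn ℂ s U) (η : Fin 2 → ℂ) :
    ContDiffAt ℝ 2 (fun t : ℝ => hNormSq H α (p + (t : ℂ) • η) (s (p + (t : ℂ) • η))) 0 := by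
  have h2 : (2 : WithTop ℕ∞) ≤ ((⊤ : ℕ∞) : WithTop ℕ∞) := by
    exact WithTop.coe_le_coe.2 (le_top : (2 : ℕ∞) ≤ ⊤)
  -- the affine map `ℂ → ℂ²`
  have hL : ContDiff ℂ (⊤ : ℕ∞) (fun z : ℂ => p + z • η) := by fun_prop
  have hLd : Differentiable ℂ (fun z : ℂ => p + z • η) := by fun_prop
  have hLc : Continuous (fun z : ℂ => p + z • η) := hLd.continuous
  have hof : ContDiff ℝ (⊤ : ℕ∞) (fun t : ℝ => (t : ℂ)) := Complex.ofRealCLM.contDiff
  have hLr : ContDiff ℝ (⊤ : ℕ∞) (fun t : ℝ => p + (t : ℂ) • η) :=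
    (hL.restrict_scalars ℝ).comp hof
  -- entries of the metric
  have hHt : ∀ i j : Fin 2, ContDiffAt ℝ 2 (fun t : ℝ => H α (p + (t : ℂ) • η) i j) 0 := by
    intro i j
    exact ((hH i j).comp hLr).contDiffAt.of_le h2
  -- entries of the section
  have hst : ∀ i : Fin 2, ContDiffAt ℝ 2 (fun t : ℝ => s (p + (t : ℂ) • η) i) 0 := by
    intro i
    have h1 : DifferentiableOn ℂ (fun z : ℂ => s (p + z • η) i)
        ((fun z : ℂ => p + z • η) ⁻¹' U) := by
      have h5 : DifferentiableOn ℂ (fun z : ℂ => s (p + z • η))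
          ((fun z : ℂ => p + z • η) ⁻¹' U) :=
        hs.comp hLd.differentiableOn (fun z hz => hz)
      exact (differentiableOn_pi.1 h5) i
    have hopen : IsOpen ((fun z : ℂ => p + z • η) ⁻¹' U) := hU.preimage hLc
    have h0 : (0 : ℂ) ∈ ((fun z : ℂ => p + z • η) ⁻¹' U) := by simpa using hp
    have h3 : ContDiffAt ℂ 2 (fun z : ℂ => s (p + z • η) i) 0 :=
      (h1.analyticAt (hopen.mem_nhds h0)).contDiffAt
    have h4 : ContDiffAt ℝ 2 (fun z : ℂ => s (p + z • η) i) ((fun t : ℝ => (t : ℂ)) 0) := by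
      simpa using h3.restrict_scalars ℝ
    exact h4.comp (0 : ℝ) (hof.contDiffAt.of_le h2)
  unfold hNormSq
  have hsum : ContDiffAt ℝ 2 (fun t : ℝ => ∑ i : Fin 2, ∑ j : Fin 2,
      H α (p + (t : ℂ) • η) i j * s (p + (t : ℂ) • η) i *
        (starRingEnd ℂ) (s (p + (t : ℂ) • η) j)) 0 := by
    refine ContDiffAt.sum fun i _ => ContDiffAt.sum fun j _ => ?_
    refine ((hHt i j).mul (hst i)).mul ?_
    exact (Complex.conjCLE.contDiff.contDiffAt (n := 2)).comp (0 : ℝ) (hst j)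
  exact (Complex.reCLM.contDiff.contDiffAt (n := 2)).comp (0 : ℝ) hsum

end Crest.Agent.R258
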