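import Crest.Agent.R258.LocalMin
import Crest.Agent.R258.HSmooth

/-!
PIECE 258-8.  The contact inequality.

Let `φ(z) = M |s|²_H(p + z ξ) - |w(z) · s(p + z ξ)|² ≥ 0` near `z = 0` with `φ(0) = 0`.  Then `0` is a
local minimum of `t ↦ φ(t)` and of `t ↦ φ(i t)`, so both second derivatives are `≥ 0`
(`deriv_deriv_nonneg_of_isLocalMin`); their sum is
`M leviAlong(|s|²)(p, ξ) - (levi |w·s|²)`, and the last term is `≥ 0` (`levi_normSq_nonneg` for
`ℓ z = cov (w z) (s (p + z • ξ))`).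
Note `leviAlong F p ξ = secondDerivAlong F p ξ + secondDerivAlong F p (I • ξ)` with
`secondDerivAlong F p η = deriv (deriv fun t : ℝ => F (p + (t : ℂ) • η)) 0`, and
`(t : ℂ) • (I • ξ) = ((t : ℂ) * I) • ξ`.
The linearity `deriv (deriv (M F - G)) 0 = M deriv (deriv F) 0 - deriv (deriv G) 0` holds for `F, G`
`ContDiffAt ℝ 2` at `0` (`hNormSq_line_contDiffAt`, `contDiffAt_normSq`).
-/

noncomputable section
namespace Crest.Agent.R258
open Crest.AlgGeometry.QuadricBundle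
open scoped ComplexOrder

/-- second derivative of `M F - G` at `0` -/
theorem deriv_deriv_mul_sub {F G : ℝ → ℝ} (M : ℝ) (hF : ContDiffAt ℝ 2 F 0)
    (hG : ContDiffAt ℝ 2 G 0) :
    deriv (deriv (fun t => M * F t - G t)) 0 = M * deriv (deriv F) 0 - deriv (deriv G) 0 := by
  have hF' : ∀ᶠ t in nhds (0 : ℝ), ContDiffAt ℝ 2 F t := hF.eventually (by simp)
  have hG' : ∀ᶠ t in nhds (0 : ℝ), ContDiffAt ℝ 2 G t := hG.eventually (by simp)
  have e1 : deriv (fun t => M * F t - G t) =ᶠ[nhds 0] fun t => M * deriv F t - deriv G t := by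
    filter_upwards [hF', hG'] with t h1 h2
    have d1 : DifferentiableAt ℝ F t := h1.differentiableAt (by norm_num)
    have d2 : DifferentiableAt ℝ G t := h2.differentiableAt (by norm_num)
    have := (d1.hasDerivAt.const_mul M).sub d2.hasDerivAt
    exact this.deriv
  rw [e1.deriv_eq]
  have dF : DifferentiableAt ℝ (deriv F) 0 := by
    have h : ContDiffAt ℝ 1 (deriv F) 0 := ContDiffAt.derivWithin hF (by norm_num)
    exact h.differentiableAt (by norm_num)
  have dG : DifferentiableAt ℝ (deriv G) 0 := by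
    have h : ContDiffAt ℝ 1 (deriv G) 0 := ContDiffAt.derivWithin hG (by norm_num)
    exact h.differentiableAt (by norm_num)
  exact ((dF.hasDerivAt.const_mul M).sub dG.hasDerivAt).deriv

theorem contact_aux (H : MetricData 2) (α : Chart)
    (hH : ∀ i j : Fin 2, ContDiff ℝ (⊤ : ℕ∞) (fun p => H α p i j))
    {p ξ : Fin 2 → ℂ} {U : Set (Fin 2 → ℂ)} (hU : IsOpen U) (hp : p ∈ U)
    {s : (Fin 2 → ℂ) → (Fin 2 → ℂ)} (hs : DifferentiableOn ℂ s U)
    {w : ℂ → Fin 2 → ℂ} (M : ℝ)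
    (hmin : ∀ᶠ z in nhds (0 : ℂ),
      ‖cov (w z) (s (p + z • ξ))‖ ^ 2 ≤ M * hNormSq H α (p + z • ξ) (s (p + z • ξ)))
    (heq : ‖cov (w 0) (s p)‖ ^ 2 = M * hNormSq H α p (s p)) (c : ℂ)
    (hG : ContDiffAt ℝ 2
      (fun t : ℝ => ‖cov (w ((t : ℂ) * c)) (s (p + ((t : ℂ) * c) • ξ))‖ ^ 2) 0) :
    deriv (deriv (fun t : ℝ => ‖cov (w ((t : ℂ) * c)) (s (p + ((t : ℂ) * c) • ξ))‖ ^ 2)) 0
      ≤ M * secondDerivAlong (fun q => hNormSq H α q (s q)) p (c • ξ) := by
  have hF : ContDiffAt ℝ 2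
      (fun t : ℝ => hNormSq H α (p + (t : ℂ) • (c • ξ)) (s (p + (t : ℂ) • (c • ξ)))) 0 :=
    hNormSq_line_contDiffAt H α hH hU hp hs (c • ξ)
  have key := deriv_deriv_mul_sub M hF hG
  have hlim : Filter.Tendsto (fun t : ℝ => (t : ℂ) * c) (nhds 0) (nhds 0) := by
    have : Continuous (fun t : ℝ => (t : ℂ) * c) := by fun_prop
    simpa using this.tendsto 0
  have hmin' : IsLocalMin (fun t : ℝ =>
      M * hNormSq H α (p + (t : ℂ) • (c • ξ)) (s (p + (t : ℂ) • (c • ξ)))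
        - ‖cov (w ((t : ℂ) * c)) (s (p + ((t : ℂ) * c) • ξ))‖ ^ 2) 0 := by
    have h1 := hlim.eventually hmin
    unfold IsLocalMin IsMinFilter
    filter_upwards [h1] with t ht
    simp only [smul_smul, Complex.ofReal_zero, zero_mul, zero_smul, add_zero]
    rw [heq]
    linarith
  have hc : ContinuousAt (fun t : ℝ =>
      M * hNormSq H α (p + (t : ℂ) • (c • ξ)) (s (p + (t : ℂ) • (c • ξ)))
        - ‖cov (w ((t : ℂ) * c)) (s (p + ((t : ℂ) * c) • ξ))‖ ^ 2) 0 :=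
    (hF.continuousAt.const_mul M).sub hG.continuousAt
  have h2 := deriv_deriv_nonneg_of_isLocalMin hmin' hc
  rw [key] at h2
  unfold secondDerivAlong
  linarith

theorem levi_contact (H : MetricData 2) (α : Chart)
    (hH : ∀ i j : Fin 2, ContDiff ℝ (⊤ : ℕ∞) (fun p => H α p i j))
    {p ξ : Fin 2 → ℂ} {U : Set (Fin 2 → ℂ)} (hU : IsOpen U) (hp : p ∈ U)
    {s : (Fin 2 → ℂ) → (Fin 2 → ℂ)} (hs : DifferentiableOn ℂ s U)
    {w : ℂ → Fin 2 → ℂ} (hw : ∀ i, Differentiable ℂ (fun z => w z i)) (M : ℝ)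
    (hmin : ∀ᶠ z in nhds (0 : ℂ),
      ‖cov (w z) (s (p + z • ξ))‖ ^ 2 ≤ M * hNormSq H α (p + z • ξ) (s (p + z • ξ)))
    (heq : ‖cov (w 0) (s p)‖ ^ 2 = M * hNormSq H α p (s p)) :
    0 ≤ M * leviAlong (fun q => hNormSq H α q (s q)) p ξ := by
  have hcont : Continuous (fun z : ℂ => p + z • ξ) := by fun_prop
  have hdiff : Differentiable ℂ (fun z : ℂ => p + z • ξ) := by fun_prop
  set V : Set ℂ := (fun z : ℂ => p + z • ξ) ⁻¹' U with hV
  have hVo : IsOpen V := hU.preimage hcont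
  have hV0 : (0 : ℂ) ∈ V := by simp [hV, hp]
  have hℓ : DifferentiableOn ℂ (fun z => cov (w z) (s (p + z • ξ))) V := by
    have h1 : DifferentiableOn ℂ (fun z => s (p + z • ξ)) V :=
      hs.comp hdiff.differentiableOn (fun z hz => hz)
    have h2 : ∀ i, DifferentiableOn ℂ (fun z => s (p + z • ξ) i) V := fun i =>
      (differentiableOn_pi.mp h1) i
    unfold cov
    exact ((hw 0).differentiableOn.mul (h2 0)).add ((hw 1).differentiableOn.mul (h2 1))
  have hA := contact_aux H α hH hU hp hs M hmin heq 1 (contDiffAt_normSq hVo hV0 hℓ 1)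
  have hB := contact_aux H α hH hU hp hs M hmin heq Complex.I
    (contDiffAt_normSq hVo hV0 hℓ Complex.I)
  have hC := levi_normSq_nonneg hVo hV0 hℓ
  simp only [mul_one, one_smul] at hA
  unfold leviAlong
  rw [mul_add]
  linarith

end Crest.Agent.R258
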