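import Crest.Agent.R258.Step3
import Crest.Agent.R258.BdCompact
import Crest.Agent.R258.Ample

/-!
Assembly for row 258 (helper50).
-/

noncomputable section
namespace Crest.Agent.R258
open Crest.AlgGeometry.QuadricBundle
open scoped ComplexOrder

/-- the parameter -/
def d0 : ℂ := ((((152 : ℝ) ^ 90)⁻¹ : ℝ) : ℂ)

theorem d0_ne_zero : d0 ≠ 0 := by
  unfold d0
  have : (((152 : ℝ) ^ 90)⁻¹ : ℝ) ≠ 0 := by positivity
  exact_mod_cast this

theorem d0_sq_ne_one : d0 ^ 2 ≠ 1 := by
  unfold d0
  have h : ((((152 : ℝ) ^ 90)⁻¹ : ℝ)) ^ 2 ≠ 1 := by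
    have h0 : (0 : ℝ) < ((152 : ℝ) ^ 90)⁻¹ := by positivity
    have h1 : ((152 : ℝ) ^ 90)⁻¹ < 1 := by
      apply inv_lt_one_of_one_lt₀
      exact one_lt_pow₀ (by norm_num) (by norm_num)
    nlinarith
  intro hc
  apply h
  exact_mod_cast hc

theorem no_griffiths (H : MetricData 2) (hH : IsHermitianMetric (gE d0) H) :
    ¬ IsGriffithsPositive H := by
  intro hG
  obtain ⟨M, hM⟩ := AllBd_exists hH
  have key : ∀ n : ℕ, AllBd H (M / 2 ^ n) := by
    intro n
    induction n with
    | zero => simpa using hM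
    | succ n ih =>
      have := step3 (r := 152) (le_refl _) rfl hH hG ih (AllBd_nonneg ih)
      have e : 76 * (M / 2 ^ n) / 152 = M / 2 ^ (n + 1) := by
        rw [pow_succ]; field_simp; ring
      rw [e] at this
      exact this
  exact AllBd_false key

end Crest.Agent.R258
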