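import Crest.Agent.R258.Defs

/-!
PIECE 258-6.  Two elementary calculus facts.

`deriv_deriv_nonneg_of_isLocalMin`: if not, `deriv (deriv f) 0 < 0`; `deriv f 0 = 0`
(`IsLocalMin.deriv_eq_zero`), so `isLocalMax_of_deriv_deriv_neg` gives a local max as well, so `f` is
constant near `0` and `deriv (deriv f) 0 = 0` (use `Filter.EventuallyEq.deriv`), contradiction.

`levi_normSq_nonneg`: for `ℓ` holomorphic near `0`, with `γ(t) = ℓ(t)` resp. `ℓ(it)` one has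
`d²/dt² |γ|² = 2 |γ'|² + 2 Re (conj γ · γ'')`; `γ'' (0) = ℓ''(0)` resp. `-ℓ''(0)`, so the sum is
`4 |ℓ'(0)|² ≥ 0`.  (`ℓ` is analytic near `0`: `DifferentiableOn.analyticAt`; the derivative
`deriv ℓ` is again differentiable near `0`.  `‖z‖^2 = normSq z = re² + im²`.)

`contDiffAt_normSq`: `t ↦ ‖ℓ(t c)‖²` is `C²` at `0`.
-/

noncomputable section
namespace Crest.Agent.R258

theorem deriv_deriv_nonneg_of_isLocalMin {f : ℝ → ℝ} (h : IsLocalMin f 0)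
    (hc : ContinuousAt f 0) : 0 ≤ deriv (deriv f) 0 := by
  by_contra hneg
  push Not at hneg
  have hmax : IsLocalMax f 0 := isLocalMax_of_deriv_deriv_neg hneg h.deriv_eq_zero hc
  have heq : f =ᶠ[nhds 0] fun _ => f 0 := by
    filter_upwards [h, hmax] with x h1 h2
    exact le_antisymm h2 h1
  have h1 : deriv f =ᶠ[nhds 0] deriv (fun _ => f 0) := heq.deriv
  have h2 : deriv (deriv f) 0 = 0 := by
    rw [h1.deriv_eq]
    simp
  linarith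

theorem contDiffAt_normSq {ℓ : ℂ → ℂ} {U : Set ℂ} (hU : IsOpen U) (h0 : (0 : ℂ) ∈ U)
    (hℓ : DifferentiableOn ℂ ℓ U) (c : ℂ) :
    ContDiffAt ℝ 2 (fun t : ℝ => ‖ℓ ((t : ℂ) * c)‖ ^ 2) 0 := by
  have ha : AnalyticAt ℂ ℓ 0 := hℓ.analyticAt (hU.mem_nhds h0)
  have h1 : ContDiffAt ℝ 2 ℓ (((0 : ℝ) : ℂ) * c) := by
    have : (((0 : ℝ) : ℂ) * c) = 0 := by simp
    rw [this]
    exact (ha.contDiffAt (n := 2)).restrict_scalars ℝ
  have h2 : ContDiffAt ℝ 2 (fun t : ℝ => (t : ℂ) * c) 0 :=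
    (Complex.ofRealCLM.contDiff.contDiffAt).mul contDiffAt_const
  have h3 : ContDiffAt ℝ 2 (fun t : ℝ => ℓ ((t : ℂ) * c)) 0 := ContDiffAt.comp (0 : ℝ) h1 h2
  exact h3.norm_sq ℝ

theorem deriv2_normSq_line {ℓ : ℂ → ℂ} {U : Set ℂ} (hU : IsOpen U) (h0 : (0 : ℂ) ∈ U)
    (hℓ : DifferentiableOn ℂ ℓ U) (c : ℂ) :
    deriv (deriv (fun t : ℝ => ‖ℓ ((t : ℂ) * c)‖ ^ 2)) 0 =
      2 * (inner ℝ (deriv ℓ 0 * c) (deriv ℓ 0 * c) +
        inner ℝ (ℓ 0) (deriv (deriv ℓ) 0 * c * c)) := by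
  have hline : ∀ t : ℝ, HasDerivAt (fun t : ℝ => (t : ℂ) * c) c t := by
    intro t
    have := (Complex.ofRealCLM.hasDerivAt (x := t)).mul_const c
    simpa using this
  have hnear : ∀ᶠ t : ℝ in nhds 0, (t : ℂ) * c ∈ U := by
    have hcont : ContinuousAt (fun t : ℝ => (t : ℂ) * c) 0 := (hline 0).continuousAt
    apply hcont.eventually
    apply hU.mem_nhds
    simpa using h0
  have hγ : ∀ᶠ t : ℝ in nhds 0, HasDerivAt (fun t : ℝ => ℓ ((t : ℂ) * c))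
      (deriv ℓ ((t : ℂ) * c) * c) t := by
    filter_upwards [hnear] with t ht
    have h1 : HasDerivAt ℓ (deriv ℓ ((t : ℂ) * c)) ((t : ℂ) * c) :=
      (hℓ.differentiableAt (hU.mem_nhds ht)).hasDerivAt
    exact h1.comp_of_eq t (hline t) rfl
  have hγ' : HasDerivAt (fun t : ℝ => deriv ℓ ((t : ℂ) * c) * c)
      (deriv (deriv ℓ) 0 * c * c) 0 := by
    have ha : AnalyticAt ℂ ℓ 0 := hℓ.analyticAt (hU.mem_nhds h0)
    have h1 : HasDerivAt (deriv ℓ) (deriv (deriv ℓ) 0) 0 := ha.deriv.differentiableAt.hasDerivAt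
    have h2 : HasDerivAt (fun t : ℝ => deriv ℓ ((t : ℂ) * c)) (deriv (deriv ℓ) 0 * c) 0 :=
      h1.comp_of_eq (0 : ℝ) (hline 0) (by simp)
    exact h2.mul_const c
  have e1 : deriv (fun t : ℝ => ‖ℓ ((t : ℂ) * c)‖ ^ 2) =ᶠ[nhds 0]
      fun t : ℝ => 2 * inner ℝ (ℓ ((t : ℂ) * c)) (deriv ℓ ((t : ℂ) * c) * c) := by
    filter_upwards [hγ] with t ht
    exact ht.norm_sq.deriv
  rw [e1.deriv_eq]
  have h2 := (hγ.self_of_nhds.inner ℝ hγ').const_mul (2 : ℝ)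
  rw [h2.deriv]
  have e0 : ((0 : ℝ) : ℂ) * c = 0 := by simp
  rw [e0]
  ring

theorem levi_normSq_nonneg {ℓ : ℂ → ℂ} {U : Set ℂ} (hU : IsOpen U) (h0 : (0 : ℂ) ∈ U)
    (hℓ : DifferentiableOn ℂ ℓ U) :
    0 ≤ deriv (deriv (fun t : ℝ => ‖ℓ (t : ℂ)‖ ^ 2)) 0
      + deriv (deriv (fun t : ℝ => ‖ℓ ((t : ℂ) * Complex.I)‖ ^ 2)) 0 := by
  have h1 := deriv2_normSq_line hU h0 hℓ 1
  have h2 := deriv2_normSq_line hU h0 hℓ Complex.I
  simp only [mul_one] at h1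
  rw [h1, h2]
  have e1 : deriv (deriv ℓ) 0 * Complex.I * Complex.I = - deriv (deriv ℓ) 0 := by
    rw [mul_assoc, Complex.I_mul_I]; ring
  rw [e1, inner_neg_right]
  have e2 : (0 : ℝ) ≤ inner ℝ (deriv ℓ 0) (deriv ℓ 0) := real_inner_self_nonneg
  have e3 : (0 : ℝ) ≤ inner ℝ (deriv ℓ 0 * Complex.I) (deriv ℓ 0 * Complex.I) :=
    real_inner_self_nonneg
  linarith

end Crest.Agent.R258
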