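import Crest.Agent.R258.Contact

/-!
PIECE 258-9.  Maximum principle for the dual norm of a holomorphic covector field along a complex
line.

Proof.  Let `F(z, v) = ‖cov (w z) v‖² / hNormSq H α (q + z • ξ) v` on the compact set
`closedBall 0 ρ ×ˢ sphere 0 1` (`hNormSq > 0` for `v ≠ 0` because `H α p` is positive definite; `F` is
continuous there).  Let `(z₀, v₀)` be a maximum point, `M = F(z₀, v₀)`.  By homogeneity in `v`
(`hNormSq (c • v) = |c|² hNormSq v`), `‖cov (w z) v‖² ≤ M hNormSq ..` for all `‖z‖ ≤ ρ` and all `v`.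
If `M ≤ K` we are done.  Otherwise `M > K ≥ 0`; if `‖z₀‖ = ρ` this contradicts `hb`.  So `‖z₀‖ < ρ`.
Griffiths positivity at `p = q + z₀ • ξ`, direction `ξ`, fibre vector `v₀` gives `U, s` with
`s p = v₀` and `leviAlong (|s|²) p ξ < 0`.  `levi_contact` for `p`, `w' z = w (z₀ + z)` and `M`
(note `p + z • ξ = q + (z₀ + z) • ξ`, and `‖z₀ + z‖ ≤ ρ` for small `z`) gives `0 ≤ M * levi < 0`.
-/

noncomputable section
namespace Crest.Agent.R258
open Crest.AlgGeometry.QuadricBundle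
open scoped ComplexOrder

theorem mp_hNormSq_pos (H : MetricData 2) (α : Chart) (p : Fin 2 → ℂ) (h : (H α p).PosDef)
    (v : Fin 2 → ℂ) (hv : v ≠ 0) : 0 < hNormSq H α p v := by
  have h1 : star v ≠ 0 := by
    intro h0
    exact hv (by rw [← star_star v, h0, star_zero])
  have h2 := h.dotProduct_mulVec_pos h1
  have h3 : dotProduct (star (star v)) ((H α p).mulVec (star v)) =
      ∑ i, ∑ j, H α p i j * v i * (starRingEnd ℂ) (v j) := by
    rw [star_star]
    simp only [dotProduct, Matrix.mulVec, Finset.mul_sum]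
    refine Finset.sum_congr rfl fun i _ => Finset.sum_congr rfl fun j _ => ?_
    simp only [Pi.star_apply, RCLike.star_def]
    ring
  rw [h3] at h2
  exact (Complex.pos_iff.1 h2).1

theorem mp_hNormSq_smul (H : MetricData 2) (α : Chart) (p : Fin 2 → ℂ) (c : ℝ)
    (v : Fin 2 → ℂ) : hNormSq H α p (c • v) = c ^ 2 * hNormSq H α p v := by
  have h3 : (∑ i, ∑ j, H α p i j * (c • v) i * (starRingEnd ℂ) ((c • v) j)) =
      ((c ^ 2 : ℝ) : ℂ) * ∑ i, ∑ j, H α p i j * v i * (starRingEnd ℂ) (v j) := by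
    simp only [Finset.mul_sum]
    refine Finset.sum_congr rfl fun i _ => Finset.sum_congr rfl fun j _ => ?_
    simp only [Pi.smul_apply, Complex.real_smul, map_mul, Complex.conj_ofReal]
    push_cast
    ring
  unfold hNormSq
  rw [h3, Complex.re_ofReal_mul]

theorem mp_cov_smul (w : Fin 2 → ℂ) (c : ℝ) (v : Fin 2 → ℂ) :
    ‖cov w (c • v)‖ ^ 2 = c ^ 2 * ‖cov w v‖ ^ 2 := by
  have : cov w (c • v) = (c : ℂ) * cov w v := by
    simp only [cov, Pi.smul_apply, Complex.real_smul]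
    ring
  rw [this, norm_mul, mul_pow, Complex.norm_real, Real.norm_eq_abs, sq_abs]

theorem mp_cont (H : MetricData 2) (α : Chart)
    (hH : ∀ i j : Fin 2, ContDiff ℝ (⊤ : ℕ∞) (fun p => H α p i j)) (q ξ : Fin 2 → ℂ) :
    Continuous (fun x : ℂ × (Fin 2 → ℂ) => hNormSq H α (q + x.1 • ξ) x.2) := by
  unfold hNormSq
  refine Complex.continuous_re.comp ?_
  refine continuous_finsetSum _ fun i _ => continuous_finsetSum _ fun j _ => ?_
  have h1 : Continuous (fun p => H α p i j) := (hH i j).continuous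
  have h2 : Continuous (fun x : ℂ × (Fin 2 → ℂ) => q + x.1 • ξ) := by fun_prop
  have h3 : Continuous (fun x : ℂ × (Fin 2 → ℂ) => H α (q + x.1 • ξ) i j) := h1.comp h2
  have h4 : Continuous (fun x : ℂ × (Fin 2 → ℂ) => (starRingEnd ℂ) (x.2 j)) :=
    Complex.continuous_conj.comp (by fun_prop)
  exact (h3.mul (by fun_prop)).mul h4

theorem mp_cov_cont (w : ℂ → Fin 2 → ℂ) (hw : ∀ i, Differentiable ℂ (fun z => w z i)) :
    Continuous (fun x : ℂ × (Fin 2 → ℂ) => ‖cov (w x.1) x.2‖ ^ 2) := by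
  have h0 : Continuous (fun z => w z 0) := (hw 0).continuous
  have h1 : Continuous (fun z => w z 1) := (hw 1).continuous
  have h0' : Continuous (fun x : ℂ × (Fin 2 → ℂ) => w x.1 0) := h0.comp continuous_fst
  have h1' : Continuous (fun x : ℂ × (Fin 2 → ℂ) => w x.1 1) := h1.comp continuous_fst
  unfold cov
  exact ((h0'.mul (by fun_prop)).add (h1'.mul (by fun_prop))).norm.pow 2

theorem max_principle (H : MetricData 2) (α : Chart)
    (hH : ∀ i j : Fin 2, ContDiff ℝ (⊤ : ℕ∞) (fun p => H α p i j))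
    (hpos : ∀ p, (H α p).PosDef) (hG : IsGriffithsPositive H)
    (q ξ : Fin 2 → ℂ) (hξ : ξ ≠ 0)
    (w : ℂ → Fin 2 → ℂ) (hw : ∀ i, Differentiable ℂ (fun z => w z i))
    (ρ K : ℝ) (hρ : 0 < ρ) (hK : 0 ≤ K)
    (hb : ∀ z : ℂ, ‖z‖ = ρ → ∀ v, ‖cov (w z) v‖ ^ 2 ≤ K * hNormSq H α (q + z • ξ) v) :
    ∀ z : ℂ, ‖z‖ ≤ ρ → ∀ v, ‖cov (w z) v‖ ^ 2 ≤ K * hNormSq H α (q + z • ξ) v := by
  set S : Set (ℂ × (Fin 2 → ℂ)) := Metric.closedBall (0 : ℂ) ρ ×ˢ Metric.sphere (0 : Fin 2 → ℂ) 1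
    with hS
  have hScpt : IsCompact S := (isCompact_closedBall _ _).prod (isCompact_sphere _ _)
  have hSne : S.Nonempty := by
    refine ⟨(0, fun _ => 1), ?_, ?_⟩
    · simpa using hρ.le
    · rw [mem_sphere_iff_norm, sub_zero, Pi.norm_def]
      simp [Finset.sup_const Finset.univ_nonempty]
  have hNpos : ∀ x ∈ S, 0 < hNormSq H α (q + x.1 • ξ) x.2 := by
    rintro ⟨z, v⟩ ⟨_, hv⟩
    refine mp_hNormSq_pos H α _ (hpos _) v ?_
    rintro rfl
    simp at hv
  have hcont : ContinuousOn (fun x : ℂ × (Fin 2 → ℂ) =>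
      ‖cov (w x.1) x.2‖ ^ 2 / hNormSq H α (q + x.1 • ξ) x.2) S :=
    (mp_cov_cont w hw).continuousOn.div (mp_cont H α hH q ξ).continuousOn
      fun x hx => (hNpos x hx).ne'
  obtain ⟨⟨z₀, v₀⟩, hx₀, hmax⟩ := hScpt.exists_isMaxOn hSne hcont
  set M : ℝ := ‖cov (w z₀) v₀‖ ^ 2 / hNormSq H α (q + z₀ • ξ) v₀ with hM
  have hN0 := hNpos _ hx₀
  simp only at hN0
  have hall : ∀ z : ℂ, ‖z‖ ≤ ρ → ∀ v, ‖cov (w z) v‖ ^ 2 ≤ M * hNormSq H α (q + z • ξ) v := by
    intro z hz v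
    by_cases hv : v = 0
    · subst hv
      simp [cov, hNormSq]
    · have hvn : 0 < ‖v‖ := norm_pos_iff.2 hv
      have hmem : ((z, (‖v‖⁻¹ : ℝ) • v) : ℂ × (Fin 2 → ℂ)) ∈ S := by
        refine ⟨by simpa using hz, ?_⟩
        simp only [mem_sphere_iff_norm, sub_zero, norm_smul, norm_inv, norm_norm]
        exact inv_mul_cancel₀ hvn.ne'
      have h1 := hmax hmem
      simp only [Set.mem_ofPred_eq] at h1
      have hpos1 := hNpos _ hmem
      simp only at hpos1
      rw [div_le_iff₀ hpos1, mp_cov_smul, mp_hNormSq_smul] at h1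
      have h2 : (0 : ℝ) < ‖v‖⁻¹ ^ 2 := by positivity
      have h3 : ‖v‖⁻¹ ^ 2 * ‖cov (w z) v‖ ^ 2 ≤
          ‖v‖⁻¹ ^ 2 * (M * hNormSq H α (q + z • ξ) v) := by
        calc _ ≤ _ := h1
          _ = _ := by ring
      exact le_of_mul_le_mul_left h3 h2
  have hnn : ∀ (z : ℂ) (v : Fin 2 → ℂ), 0 ≤ hNormSq H α (q + z • ξ) v := by
    intro z v
    by_cases hv : v = 0
    · subst hv; simp [hNormSq]
    · exact (mp_hNormSq_pos H α _ (hpos _) v hv).le
  by_cases hMK : M ≤ K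
  · intro z hz v
    exact (hall z hz v).trans (mul_le_mul_of_nonneg_right hMK (hnn z v))
  · exfalso
    push Not at hMK
    have hz₀ : ‖z₀‖ ≤ ρ := by simpa using hx₀.1
    have hv₀ : v₀ ≠ 0 := by
      rintro rfl
      have := hx₀.2
      simp at this
    have heq : ‖cov (w z₀) v₀‖ ^ 2 = M * hNormSq H α (q + z₀ • ξ) v₀ := by
      rw [hM, div_mul_cancel₀ _ hN0.ne']
    have hlt : ‖z₀‖ < ρ := by
      rcases hz₀.lt_or_eq with h | h
      · exact h
      · exfalso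
        have h1 := hb z₀ h v₀
        rw [heq] at h1
        exact absurd (le_of_mul_le_mul_right h1 hN0) (not_le.2 hMK)
    obtain ⟨U, s, hU, hpU, hs, hsp, hlevi⟩ := hG α (q + z₀ • ξ) ξ v₀ hξ hv₀
    have hmin : ∀ᶠ z in nhds (0 : ℂ),
        ‖cov (w (z₀ + z)) (s (q + z₀ • ξ + z • ξ))‖ ^ 2 ≤
          M * hNormSq H α (q + z₀ • ξ + z • ξ) (s (q + z₀ • ξ + z • ξ)) := by
      have h1 : ∀ᶠ z in nhds (0 : ℂ), ‖z₀ + z‖ < ρ := by
        have hc : Continuous (fun z : ℂ => ‖z₀ + z‖) := by fun_prop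
        have := hc.continuousAt (x := (0 : ℂ))
        exact this.eventually (gt_mem_nhds (by simpa using hlt))
      filter_upwards [h1] with z hz
      have h2 : q + z₀ • ξ + z • ξ = q + (z₀ + z) • ξ := by
        rw [add_smul, add_assoc]
      rw [h2]
      exact hall (z₀ + z) hz.le _
    have heq' : ‖cov (w (z₀ + 0)) (s (q + z₀ • ξ))‖ ^ 2 =
        M * hNormSq H α (q + z₀ • ξ) (s (q + z₀ • ξ)) := by
      rw [add_zero, hsp]
      exact heq
    have hw' : ∀ i, Differentiable ℂ (fun z => w (z₀ + z) i) := fun i =>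
      (hw i).comp ((differentiable_const z₀).add differentiable_id)
    have hcontact := levi_contact H α hH hU hpU hs (w := fun z => w (z₀ + z)) hw' M hmin heq'
    have hMpos : 0 < M := lt_of_le_of_lt hK hMK
    have := mul_neg_of_pos_of_neg hMpos hlevi
    linarith

end Crest.Agent.R258
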