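import Crest.Agent.R258.Cocycle
import Crest.Agent.R258.BdMax

/-!
PIECE 258-13 (step1).  `r ≥ 152`, `d = (r^90)⁻¹` (real), `g = gE d`, `M` a bound for the
basis covectors on the four closed polydiscs.

Notation: at `p = (X, Y)`: `x = X^3`, `y = Y^3`.  For the flip of the second coordinate
(`β = (α.1, 1 - α.2)`, `Y ≠ 0`, `tau α β (X, Y) = (X, Y⁻¹)`), a covector transforms by
`w^β = gᵀ w^α = (Y⁻¹^10 w₀, -h w₀ - Y^17 w₁)`, and (checked by computer algebra)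
  type 0 chart (`α.1 = α.2`): `gᵀ ψ^α(X,Y) = Y⁻¹ • ψ^β(X, Y⁻¹) + (0, -d (Y^2 - X^6 Y^14))`,
  type 1 chart:               `gᵀ ψ^α(X,Y) = Y⁻¹ • ψ^β(X, Y⁻¹) + (0, -d (Y^14 - X^6 Y^2))`.

Proof.  Let `ρ = r^6`, `‖X‖ ≤ 1`, `‖Y‖ = ρ`.  Then `‖Y⁻¹‖ = 1/ρ ≤ 1`, so by `AllBd` and `Bd.comb`
on the chart `β`: `ψ^β(X,Y⁻¹)` has `‖ψ 0‖ + ‖ψ 1‖ ≤ 4` (each entry `≤ 2` since `‖d‖ ≤ 1`), and
`(0, c)` has norm `≤ ‖c‖ M`, so `Bd β (gᵀ ψ^α) ((4/ρ + 2 d ρ^14) M)`, with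
`2 d ρ^14 = 2 r^84 / r^90 = 2/ρ`.  By `Bd.of_transition` (with `gE_cocycle`)
`Bd α (X,Y) ψ^α (6M/ρ)` on `‖Y‖ = ρ`; `Bd_maxY` (covector field `fun Y => psi d α ![X, Y]`, polynomial
in `Y`) gives it for `‖Y‖ ≤ ρ`, in particular for `‖Y‖ ≤ 1`.
-/

noncomputable section
namespace Crest.Agent.R258
open Crest.AlgGeometry.QuadricBundle
open scoped ComplexOrder

variable {H : MetricData 2} {M r : ℝ} {d : ℂ}

/-- the two components of `gᵀ ψ` for the flip of the second coordinate, type 0 -/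
theorem step1_alg0 (d X Y : ℂ) (hY : Y ≠ 0) (α : Chart) (hα : α.1 = α.2) :
    (TY d α ![X, Y]).transpose.mulVec (psi d α ![X, Y])
      = ![Y⁻¹ * (1 - X ^ 3 * (Y⁻¹) ^ 9),
          Y⁻¹ * (X ^ 6 + d * X ^ 3 * (Y⁻¹) ^ 6) - d * (Y ^ 2 - X ^ 6 * Y ^ 14)] := by
  ext i
  fin_cases i
  · simp [TY, psi, hα, psi0, hh, Matrix.mulVec, dotProduct, Fin.sum_univ_two]
    field_simp
  · simp [TY, psi, hα, psi0, hh, Matrix.mulVec, dotProduct, Fin.sum_univ_two]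
    field_simp
    ring

/-- the two components of `gᵀ ψ` for the flip of the second coordinate, type 1 -/
theorem step1_alg1 (d X Y : ℂ) (hY : Y ≠ 0) (α : Chart) (hα : ¬ α.1 = α.2) :
    (TY d α ![X, Y]).transpose.mulVec (psi d α ![X, Y])
      = ![Y⁻¹ * ((Y⁻¹) ^ 9 - X ^ 3),
          Y⁻¹ * (-(1 + d * X ^ 3 * (Y⁻¹) ^ 6)) - d * (Y ^ 14 - X ^ 6 * Y ^ 2)] := by
  ext i
  fin_cases i
  · simp [TY, psi, hα, psi1, hh, Matrix.mulVec, dotProduct, Fin.sum_univ_two]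
    field_simp
  · simp [TY, psi, hα, psi1, hh, Matrix.mulVec, dotProduct, Fin.sum_univ_two]
    field_simp
    ring

theorem step1_est (hr : 1 ≤ r) (hd : d = (((r ^ 90)⁻¹ : ℝ) : ℂ)) {X Y : ℂ} (hX : ‖X‖ ≤ 1)
    (hY : ‖Y‖ = r ^ 6) :
    ‖Y⁻¹ * (1 - X ^ 3 * (Y⁻¹) ^ 9)‖ ≤ 2 / r ^ 6 ∧
    ‖Y⁻¹ * (X ^ 6 + d * X ^ 3 * (Y⁻¹) ^ 6) - d * (Y ^ 2 - X ^ 6 * Y ^ 14)‖ ≤ 4 / r ^ 6 ∧
    ‖Y⁻¹ * ((Y⁻¹) ^ 9 - X ^ 3)‖ ≤ 2 / r ^ 6 ∧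
    ‖Y⁻¹ * (-(1 + d * X ^ 3 * (Y⁻¹) ^ 6)) - d * (Y ^ 14 - X ^ 6 * Y ^ 2)‖ ≤ 4 / r ^ 6 := by
  have hr0 : 0 < r := by linarith
  have hYi : ‖Y⁻¹‖ = 1 / r ^ 6 := by rw [norm_inv, hY, one_div]
  have hYi1 : ‖Y⁻¹‖ ≤ 1 := by
    rw [hYi, div_le_one (by positivity)]; exact one_le_pow₀ hr
  have hYi0 : 0 ≤ ‖Y⁻¹‖ := norm_nonneg _
  have hX0 : 0 ≤ ‖X‖ := norm_nonneg _
  have hdn : ‖d‖ = (r ^ 90)⁻¹ := by
    rw [hd, Complex.norm_real, Real.norm_of_nonneg (by positivity)]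
  have hd1 : ‖d‖ ≤ 1 := by
    rw [hdn]; exact inv_le_one_of_one_le₀ (one_le_pow₀ hr)
  have hX3 : ‖X‖ ^ 3 ≤ 1 := pow_le_one₀ hX0 hX
  have hX6 : ‖X‖ ^ 6 ≤ 1 := pow_le_one₀ hX0 hX
  have hYi9 : ‖Y⁻¹‖ ^ 9 ≤ 1 := pow_le_one₀ hYi0 hYi1
  have hYi6 : ‖Y⁻¹‖ ^ 6 ≤ 1 := pow_le_one₀ hYi0 hYi1
  have hdY14 : ‖d‖ * ‖Y‖ ^ 14 = 1 / r ^ 6 := by
    rw [hdn, hY]; field_simp
  have hY2 : ‖Y‖ ^ 2 ≤ ‖Y‖ ^ 14 := by
    apply pow_le_pow_right₀ _ (by norm_num)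
    rw [hY]; exact one_le_pow₀ hr
  have hdY2 : ‖d‖ * ‖Y‖ ^ 2 ≤ 1 / r ^ 6 := by
    rw [← hdY14]; exact mul_le_mul_of_nonneg_left hY2 (norm_nonneg _)
  -- the `c` terms
  have hc0 : ‖d * (Y ^ 2 - X ^ 6 * Y ^ 14)‖ ≤ 2 / r ^ 6 := by
    have : ‖Y ^ 2 - X ^ 6 * Y ^ 14‖ ≤ ‖Y‖ ^ 2 + ‖Y‖ ^ 14 := by
      refine (norm_sub_le _ _).trans ?_
      rw [norm_mul, norm_pow, norm_pow, norm_pow]
      have : ‖X‖ ^ 6 * ‖Y‖ ^ 14 ≤ 1 * ‖Y‖ ^ 14 :=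
        mul_le_mul_of_nonneg_right hX6 (by positivity)
      linarith
    rw [norm_mul]
    calc ‖d‖ * ‖Y ^ 2 - X ^ 6 * Y ^ 14‖ ≤ ‖d‖ * (‖Y‖ ^ 2 + ‖Y‖ ^ 14) :=
          mul_le_mul_of_nonneg_left this (norm_nonneg _)
      _ = ‖d‖ * ‖Y‖ ^ 2 + ‖d‖ * ‖Y‖ ^ 14 := by ring
      _ ≤ 1 / r ^ 6 + 1 / r ^ 6 := by linarith
      _ = 2 / r ^ 6 := by ring
  have hc1 : ‖d * (Y ^ 14 - X ^ 6 * Y ^ 2)‖ ≤ 2 / r ^ 6 := by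
    have : ‖Y ^ 14 - X ^ 6 * Y ^ 2‖ ≤ ‖Y‖ ^ 14 + ‖Y‖ ^ 2 := by
      refine (norm_sub_le _ _).trans ?_
      rw [norm_mul, norm_pow, norm_pow, norm_pow]
      have : ‖X‖ ^ 6 * ‖Y‖ ^ 2 ≤ 1 * ‖Y‖ ^ 2 :=
        mul_le_mul_of_nonneg_right hX6 (by positivity)
      linarith
    rw [norm_mul]
    calc ‖d‖ * ‖Y ^ 14 - X ^ 6 * Y ^ 2‖ ≤ ‖d‖ * (‖Y‖ ^ 14 + ‖Y‖ ^ 2) :=
          mul_le_mul_of_nonneg_left this (norm_nonneg _)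
      _ = ‖d‖ * ‖Y‖ ^ 2 + ‖d‖ * ‖Y‖ ^ 14 := by ring
      _ ≤ 1 / r ^ 6 + 1 / r ^ 6 := by linarith
      _ = 2 / r ^ 6 := by ring
  -- a product with `Y⁻¹`
  have hmul : ∀ z : ℂ, ‖z‖ ≤ 2 → ‖Y⁻¹ * z‖ ≤ 2 / r ^ 6 := by
    intro z hz
    rw [norm_mul, hYi]
    calc 1 / r ^ 6 * ‖z‖ ≤ 1 / r ^ 6 * 2 := mul_le_mul_of_nonneg_left hz (by positivity)
      _ = 2 / r ^ 6 := by ring
  have h1 : ‖1 - X ^ 3 * (Y⁻¹) ^ 9‖ ≤ 2 := by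
    refine (norm_sub_le _ _).trans ?_
    rw [norm_one, norm_mul, norm_pow, norm_pow]
    have := mul_le_one₀ hX3 (by positivity) hYi9
    linarith
  have h3 : ‖(Y⁻¹) ^ 9 - X ^ 3‖ ≤ 2 := by
    refine (norm_sub_le _ _).trans ?_
    rw [norm_pow, norm_pow]
    linarith
  have hdX : ‖d * X ^ 3 * (Y⁻¹) ^ 6‖ ≤ 1 := by
    rw [norm_mul, norm_mul, norm_pow, norm_pow]
    exact mul_le_one₀ (mul_le_one₀ hd1 (by positivity) hX3) (by positivity) hYi6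
  have h2 : ‖X ^ 6 + d * X ^ 3 * (Y⁻¹) ^ 6‖ ≤ 2 := by
    refine (norm_add_le _ _).trans ?_
    rw [norm_pow]
    linarith
  have h4 : ‖-(1 + d * X ^ 3 * (Y⁻¹) ^ 6)‖ ≤ 2 := by
    rw [norm_neg]
    refine (norm_add_le _ _).trans ?_
    rw [norm_one]
    linarith
  refine ⟨hmul _ h1, ?_, hmul _ h3, ?_⟩
  · refine (norm_sub_le _ _).trans ?_
    have := hmul _ h2
    calc _ ≤ 2 / r ^ 6 + 2 / r ^ 6 := add_le_add this hc0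
      _ = 4 / r ^ 6 := by ring
  · refine (norm_sub_le _ _).trans ?_
    have := hmul _ h4
    calc _ ≤ 2 / r ^ 6 + 2 / r ^ 6 := add_le_add this hc1
      _ = 4 / r ^ 6 := by ring

theorem psi_line_differentiable (d : ℂ) (α : Chart) (X : ℂ) (i : Fin 2) :
    Differentiable ℂ (fun z : ℂ => psi d α ![X, z] i) := by
  by_cases hα : α.1 = α.2
  · fin_cases i
    · simp only [psi, hα, psi0]
      simp
    · simp only [psi, hα, psi0]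
      simp
      fun_prop
  · fin_cases i
    · simp only [psi, hα, psi1]
      simp
      fun_prop
    · simp only [psi, hα, psi1]
      simp
      fun_prop

theorem step1 (hr : 152 ≤ r) (hd : d = (((r ^ 90)⁻¹ : ℝ) : ℂ))
    (hH : IsHermitianMetric (gE d) H) (hG : IsGriffithsPositive H) (hM : AllBd H M) (hM0 : 0 ≤ M)
    (α : Chart) (X Y : ℂ) (hX : ‖X‖ ≤ 1) (hY : ‖Y‖ ≤ 1) :
    Bd H α ![X, Y] (psi d α ![X, Y]) (6 * M / r ^ 6) := by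
  have hr1 : 1 ≤ r := by linarith
  have hr0 : 0 < r := by linarith
  have hr6 : 1 ≤ r ^ 6 := one_le_pow₀ hr1
  refine Bd_maxY hH hG α X (fun Y => psi d α ![X, Y])
    (fun i => psi_line_differentiable d α X i) (r ^ 6) (6 * M / r ^ 6) (by positivity)
    (by positivity) ?_ Y (hY.trans hr6)
  intro Z hZ
  have hZ0 : Z ≠ 0 := by
    rw [← norm_pos_iff, hZ]; positivity
  -- the flipped chart
  set β : Chart := (α.1, α.2 + 1) with hβ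
  have h2 : α.2 ≠ β.2 := by
    rw [hβ]; obtain ⟨a, b⟩ := α; fin_cases b <;> simp
  have hp : ![X, Z] ∈ overlap α β := by
    refine ⟨fun h => absurd rfl h, fun _ => ?_⟩
    simpa using hZ0
  have hg : gE d α β ![X, Z] = TY d α ![X, Z] := by
    simp only [gE, if_neg h2]
    rw [if_pos (by rw [hβ]), mul_one]
  have hτ : tau α β ![X, Z] = ![X, Z⁻¹] := by
    simp only [tau, if_neg h2]
    rw [if_pos (by rw [hβ])]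
    simp
  refine Bd.of_transition (gE_cocycle d) hH hp ?_
  rw [hg, hτ]
  have hMβ : ∀ i, Bd H β ![X, Z⁻¹] (eps i) M := by
    intro i
    refine hM β ![X, Z⁻¹] (by simpa using hX) ?_ i
    have : ‖Z⁻¹‖ ≤ 1 := by
      rw [norm_inv, hZ]; exact inv_le_one_of_one_le₀ hr6
    simpa using this
  obtain ⟨e1, e2, e3, e4⟩ := step1_est hr1 hd hX hZ
  by_cases hα : α.1 = α.2
  · rw [step1_alg0 d X Z hZ0 α hα]
    refine (Bd.comb hMβ _).mono ?_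
    have : (‖Z⁻¹ * (1 - X ^ 3 * (Z⁻¹) ^ 9)‖
        + ‖Z⁻¹ * (X ^ 6 + d * X ^ 3 * (Z⁻¹) ^ 6) - d * (Z ^ 2 - X ^ 6 * Z ^ 14)‖) * M
        ≤ (2 / r ^ 6 + 4 / r ^ 6) * M :=
      mul_le_mul_of_nonneg_right (add_le_add e1 e2) hM0
    refine le_trans ?_ (this.trans (le_of_eq (by ring)))
    simp
  · rw [step1_alg1 d X Z hZ0 α hα]
    refine (Bd.comb hMβ _).mono ?_
    have : (‖Z⁻¹ * ((Z⁻¹) ^ 9 - X ^ 3)‖
        + ‖Z⁻¹ * (-(1 + d * X ^ 3 * (Z⁻¹) ^ 6)) - d * (Z ^ 14 - X ^ 6 * Z ^ 2)‖) * M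
        ≤ (2 / r ^ 6 + 4 / r ^ 6) * M :=
      mul_le_mul_of_nonneg_right (add_le_add e3 e4) hM0
    refine le_trans ?_ (this.trans (le_of_eq (by ring)))
    simp

end Crest.Agent.R258
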