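import Crest.Agent.R258.Step1

/-!
PIECE 258-14 (step2a).  For the flip of the first coordinate (`β = (1 - α.1, α.2)`, `X ≠ 0`,
`tau α β (X, Y) = (X⁻¹, Y)`) a covector transforms by `w^β = gᵀ w^α = (X^5 w₀, X^2 w₁)`.

Proof.  `α` of type 0, `‖Y‖ ≤ 1`, `‖X‖ = r`.  `β` = flip of the first coordinate, of type 1,
`X' = X⁻¹`, `x' = X'^3`, `y = Y^3`.  `gᵀ (1,0) = X^5 • (1,0)` and
`(1 - x' y^3) • (1,0) = ψ^β(X',Y) - (x'^2 + d x' y^2) • (0,1)`, `‖1 - x' y^3‖ ≥ 1/2`.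
`step1` on the chart `β` at `(X', Y)` gives `Bd β (X',Y) ψ^β (6M/r^6)`, and `hM` gives
`Bd β (X',Y) (0,1) M`.  So `Bd β (X^5 (1,0))` with constant
`r^5 · 2 · (6M/r^6 + (r^-6 + d r^-3) M) = 12 M/r + 2M/r + 2 d r^2 M ≤ 16 M / r`.
Then `Bd.of_transition` (on `‖X‖ = r`) and `Bd_maxX` (constant covector field `eps 0`, radius `r`).
-/

noncomputable section
namespace Crest.Agent.R258
open Crest.AlgGeometry.QuadricBundle
open scoped ComplexOrder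

variable {H : MetricData 2} {M r : ℝ} {d : ℂ}

theorem step2a (hr : 152 ≤ r) (hd : d = (((r ^ 90)⁻¹ : ℝ) : ℂ))
    (hH : IsHermitianMetric (gE d) H) (hG : IsGriffithsPositive H) (hM : AllBd H M) (hM0 : 0 ≤ M)
    (α : Chart) (hα : α.1 = α.2) (X Y : ℂ) (hX : ‖X‖ ≤ 1) (hY : ‖Y‖ ≤ 1) :
    Bd H α ![X, Y] (eps 0) (16 * M / r) := by
  have hr0 : (0:ℝ) < r := by linarith
  have hKM : 0 ≤ 16 * M / r := by positivity
  refine Bd_maxX hH hG α Y (fun _ => eps 0) (fun i => differentiable_const _) r (16 * M / r)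
    hr0 hKM ?_ X (hX.trans (by linarith))
  clear hX X
  intro X hX
  have hX0 : X ≠ 0 := by
    rintro rfl
    simp at hX
    linarith
  obtain ⟨a, b⟩ := α
  simp only at hα
  subst hα
  have hne : a ≠ 1 - a := by
    revert a; decide
  have hne' : 1 - a ≠ a := fun h => hne h.symm
  obtain ⟨β, hβ⟩ : ∃ β : Chart, β = (1 - a, a) := ⟨_, rfl⟩
  have hp : (![X, Y] : Fin 2 → ℂ) ∈ overlap (a, a) β := by
    subst hβ
    exact ⟨fun _ => by simpa using hX0, fun h => absurd rfl h⟩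
  have htau : tau (a, a) β ![X, Y] = ![X⁻¹, Y] := by
    subst hβ
    simp [tau, hne]
  have hinv : ‖X⁻¹‖ ≤ 1 := by
    rw [norm_inv, hX]
    exact inv_le_one_of_one_le₀ (by linarith)
  obtain ⟨x', hx'⟩ : ∃ x' : ℂ, x' = (X⁻¹) ^ 3 := ⟨_, rfl⟩
  obtain ⟨y, hy⟩ : ∃ y : ℂ, y = Y ^ 3 := ⟨_, rfl⟩
  have hnx : ‖x'‖ = (r ^ 3)⁻¹ := by rw [hx', norm_pow, norm_inv, hX, inv_pow]
  have hny : ‖y‖ ≤ 1 := by rw [hy, norm_pow]; exact pow_le_one₀ (norm_nonneg _) hY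
  have hnd : ‖d‖ = (r ^ 90)⁻¹ := by
    rw [hd, Complex.norm_real, Real.norm_of_nonneg (by positivity)]
  have h1 := step1 hr hd hH hG hM hM0 β X⁻¹ Y hinv hY
  have hpsi : psi d β ![X⁻¹, Y] = ![1 - x' * y ^ 3, x' ^ 2 + d * x' * y ^ 2] := by
    subst hβ
    simp [psi, hne', psi1, hx', hy]
  rw [hpsi] at h1
  -- lower bound for `1 - x' y^3`
  have hr3 : (1:ℝ) ≤ r ^ 3 := one_le_pow₀ (by linarith)
  have hr3' : (2:ℝ) ≤ r ^ 3 := by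
    calc (2:ℝ) ≤ r := by linarith
      _ = r ^ 1 := (pow_one r).symm
      _ ≤ r ^ 3 := pow_le_pow_right₀ (by linarith) (by norm_num)
  have hsmall : ‖x' * y ^ 3‖ ≤ 1 / 2 := by
    rw [norm_mul, norm_pow, hnx]
    have h1 : ‖y‖ ^ 3 ≤ 1 := pow_le_one₀ (norm_nonneg _) hny
    have h2 : (r ^ 3)⁻¹ ≤ 1 / 2 := by
      rw [one_div]
      exact inv_anti₀ (by norm_num) hr3'
    calc (r ^ 3)⁻¹ * ‖y‖ ^ 3 ≤ (r ^ 3)⁻¹ * 1 := by gcongr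
      _ ≤ 1 / 2 := by linarith
  have hlow : (1:ℝ) / 2 ≤ ‖1 - x' * y ^ 3‖ := by
    have := norm_sub_norm_le (1 : ℂ) (x' * y ^ 3)
    rw [norm_one] at this
    linarith
  have hden : 1 - x' * y ^ 3 ≠ 0 := by
    intro h
    rw [h, norm_zero] at hlow
    linarith
  have hM1 := hM β ![X⁻¹, Y] (by simpa using hinv) (by simpa using hY) 1
  have h2 := h1.add (hM1.smul (-(x' ^ 2 + d * x' * y ^ 2)))
  have h3 := h2.smul (X ^ 5 / (1 - x' * y ^ 3))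
  have hvec : (X ^ 5 / (1 - x' * y ^ 3)) • (![1 - x' * y ^ 3, x' ^ 2 + d * x' * y ^ 2] +
      (-(x' ^ 2 + d * x' * y ^ 2)) • (eps 1 : Fin 2 → ℂ)) =
      (gE d (a, a) β ![X, Y]).transpose.mulVec (eps 0) := by
    subst hβ
    have e0 : (eps 0 : Fin 2 → ℂ) = ![1, 0] := by
      funext i; fin_cases i <;> simp [eps]
    have e1 : (eps 1 : Fin 2 → ℂ) = ![0, 1] := by
      funext i; fin_cases i <;> simp [eps]
    rw [e0, e1]
    funext i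
    fin_cases i
    · simp [gE, DX, Matrix.mulVec, dotProduct, Fin.sum_univ_two, hne, Matrix.transpose_apply]
      field_simp
    · simp [gE, DX, Matrix.mulVec, dotProduct, Fin.sum_univ_two, hne, Matrix.transpose_apply]
  rw [hvec] at h3
  rw [← htau] at h3
  refine (Bd.of_transition (gE_cocycle d) hH hp h3).mono ?_
  -- the numerical estimate
  rw [norm_neg, norm_div, norm_pow, hX]
  have hc : ‖x' ^ 2 + d * x' * y ^ 2‖ ≤ (r ^ 6)⁻¹ + (r ^ 90)⁻¹ * (r ^ 3)⁻¹ := by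
    calc ‖x' ^ 2 + d * x' * y ^ 2‖ ≤ ‖x' ^ 2‖ + ‖d * x' * y ^ 2‖ := norm_add_le _ _
      _ = (r ^ 6)⁻¹ + (r ^ 90)⁻¹ * (r ^ 3)⁻¹ * ‖y‖ ^ 2 := by
        rw [norm_pow, norm_mul, norm_mul, norm_pow, hnx, hnd, inv_pow, ← pow_mul]
      _ ≤ (r ^ 6)⁻¹ + (r ^ 90)⁻¹ * (r ^ 3)⁻¹ * 1 := by
        have h1 : ‖y‖ ^ 2 ≤ 1 := pow_le_one₀ (norm_nonneg _) hny
        gcongr
      _ = _ := by ring
  have hq : r ^ 5 / ‖1 - x' * y ^ 3‖ ≤ r ^ 5 * 2 := by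
    rw [div_le_iff₀ (by linarith)]
    have : 0 ≤ r ^ 5 := by positivity
    nlinarith
  have hr88 : (r ^ 88)⁻¹ ≤ r⁻¹ := by
    apply inv_anti₀ hr0
    calc r = r ^ 1 := (pow_one r).symm
      _ ≤ r ^ 88 := pow_le_pow_right₀ (by linarith) (by norm_num)
  calc r ^ 5 / ‖1 - x' * y ^ 3‖ * (6 * M / r ^ 6 + ‖x' ^ 2 + d * x' * y ^ 2‖ * M)
      ≤ r ^ 5 * 2 * (6 * M / r ^ 6 + ((r ^ 6)⁻¹ + (r ^ 90)⁻¹ * (r ^ 3)⁻¹) * M) := by
        gcongr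
    _ = 12 * M * r⁻¹ + 2 * M * r⁻¹ + 2 * M * (r ^ 88)⁻¹ := by
        field_simp
        ring
    _ ≤ 12 * M * r⁻¹ + 2 * M * r⁻¹ + 2 * M * r⁻¹ := by gcongr
    _ = 16 * M / r := by rw [div_eq_mul_inv]; ring

end Crest.Agent.R258
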