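import Crest.Agent.R258.Step2a

/-!
PIECE 258-15 (step2, step3).
-/

noncomputable section
namespace Crest.Agent.R258
open Crest.AlgGeometry.QuadricBundle
open scoped ComplexOrder

variable {H : MetricData 2} {M r : ℝ} {d : ℂ}

theorem norm_d_le {r : ℝ} {d : ℂ} (hr : 152 ≤ r) (hd : d = (((r ^ 90)⁻¹ : ℝ) : ℂ)) :
    ‖d‖ ≤ 1 / 2 := by
  have h1 : (2 : ℝ) ≤ r ^ 90 := by
    calc (2 : ℝ) ≤ r := by linarith
      _ = r ^ 1 := (pow_one r).symm
      _ ≤ r ^ 90 := pow_le_pow_right₀ (by linarith) (by norm_num)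
  rw [hd, Complex.norm_real, Real.norm_eq_abs, abs_of_nonneg (by positivity), one_div]
  exact inv_anti₀ (by norm_num) h1

theorem step2 (hr : 152 ≤ r) (hd : d = (((r ^ 90)⁻¹ : ℝ) : ℂ))
    (hH : IsHermitianMetric (gE d) H) (hG : IsGriffithsPositive H) (hM : AllBd H M) (hM0 : 0 ≤ M)
    (α : Chart) (hα : α.1 = α.2) (X Y : ℂ) (hX : ‖X‖ ≤ 1) (hY : ‖Y‖ ≤ 1) (i : Fin 2) :
    Bd H α ![X, Y] (eps i) (76 * M / r) := by
  have hr0 : 0 < r := by linarith
  have h0 := step2a hr hd hH hG hM hM0 α hα X Y hX hY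
  have hψ := step1 hr hd hH hG hM hM0 α X Y hX hY
  have hd2 := norm_d_le hr hd
  fin_cases i
  · refine h0.mono ?_
    gcongr
    norm_num
  · set c : ℂ := 1 + d * X ^ 3 * (Y ^ 3) ^ 2 with hc
    have hsmall : ‖d * X ^ 3 * (Y ^ 3) ^ 2‖ ≤ 1 / 2 := by
      rw [norm_mul, norm_mul, norm_pow, norm_pow, norm_pow]
      have h1 : ‖X‖ ^ 3 ≤ 1 := pow_le_one₀ (norm_nonneg _) hX
      have h2 : (‖Y‖ ^ 3) ^ 2 ≤ 1 := pow_le_one₀ (by positivity) (pow_le_one₀ (norm_nonneg _) hY)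
      calc ‖d‖ * ‖X‖ ^ 3 * (‖Y‖ ^ 3) ^ 2 ≤ (1 / 2) * 1 * 1 := by
            gcongr
        _ = 1 / 2 := by norm_num
    have hcn : 1 / 2 ≤ ‖c‖ := by
      have : ‖(1 : ℂ)‖ - ‖-(d * X ^ 3 * (Y ^ 3) ^ 2)‖ ≤ ‖(1 : ℂ) - -(d * X ^ 3 * (Y ^ 3) ^ 2)‖ :=
        norm_sub_norm_le _ _
      rw [norm_one, norm_neg, sub_neg_eq_add] at this
      rw [hc]
      linarith
    have hc0 : c ≠ 0 := by
      intro h
      rw [h, norm_zero] at hcn
      linarith
    have e : eps 1 = c⁻¹ • (((Y ^ 3) ^ 3 - X ^ 3) • eps 0 + (-1 : ℂ) • psi d α ![X, Y]) := by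
      have hpsi : psi d α ![X, Y] = ![(Y ^ 3) ^ 3 - X ^ 3, -c] := by
        simp only [psi, if_pos hα, psi0, Matrix.cons_val_zero, Matrix.cons_val_one, hc]
      rw [hpsi]
      have e0 : (eps 0 : Fin 2 → ℂ) = ![1, 0] := by ext j; fin_cases j <;> simp [eps]
      have e1 : (eps 1 : Fin 2 → ℂ) = ![0, 1] := by ext j; fin_cases j <;> simp [eps]
      rw [e0, e1]
      ext j
      fin_cases j
      · simp
      · simp [hc0]
    have key := ((h0.smul ((Y ^ 3) ^ 3 - X ^ 3)).add (hψ.smul (-1))).smul c⁻¹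
    rw [← e] at key
    show Bd H α ![X, Y] (eps 1) (76 * M / r)
    refine key.mono ?_
    have h1 : ‖c⁻¹‖ ≤ 2 := by
      rw [norm_inv]
      calc ‖c‖⁻¹ ≤ (1 / 2)⁻¹ := inv_anti₀ (by norm_num) hcn
        _ = 2 := by norm_num
    have h2 : ‖(Y ^ 3) ^ 3 - X ^ 3‖ ≤ 2 := by
      refine (norm_sub_le _ _).trans ?_
      rw [norm_pow, norm_pow, norm_pow]
      have h1 : ‖X‖ ^ 3 ≤ 1 := pow_le_one₀ (norm_nonneg _) hX
      have h2 : (‖Y‖ ^ 3) ^ 3 ≤ 1 := pow_le_one₀ (by positivity) (pow_le_one₀ (norm_nonneg _) hY)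
      linarith
    have h3 : 6 * M / r ^ 6 ≤ 6 * M / r := by
      apply div_le_div_of_nonneg_left (by positivity) hr0
      calc r = r ^ 1 := (pow_one r).symm
        _ ≤ r ^ 6 := pow_le_pow_right₀ (by linarith) (by norm_num)
    have h4 : 0 ≤ 16 * M / r := by positivity
    have h5 : 0 ≤ 6 * M / r ^ 6 := by positivity
    rw [norm_neg, norm_one, one_mul]
    calc ‖c⁻¹‖ * (‖(Y ^ 3) ^ 3 - X ^ 3‖ * (16 * M / r) + 6 * M / r ^ 6)
        ≤ 2 * (2 * (16 * M / r) + 6 * M / r) := by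
          gcongr
      _ = 76 * M / r := by ring

theorem gE_flipX (d : ℂ) {α β : Chart} (h2 : α.2 = β.2) (h1 : α.1 ≠ β.1) (p : Fin 2 → ℂ) :
    gE d α β p = DX p := by
  simp [gE, h2, h1]

theorem step3 (hr : 152 ≤ r) (hd : d = (((r ^ 90)⁻¹ : ℝ) : ℂ))
    (hH : IsHermitianMetric (gE d) H) (hG : IsGriffithsPositive H) (hM : AllBd H M) (hM0 : 0 ≤ M) :
    AllBd H (76 * M / r) := by
  intro β p hp0 hp1 i
  have hr0 : 0 < r := by linarith
  have hp : p = ![p 0, p 1] := by ext j; fin_cases j <;> rfl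
  rw [hp]
  generalize p 0 = X at hp0 ⊢
  generalize p 1 = Y at hp1 ⊢
  by_cases hβ : β.1 = β.2
  · exact step2 hr hd hH hG hM hM0 β hβ X Y hp0 hp1 i
  · -- flip the first coordinate
    set α : Chart := (β.2, β.2) with hα
    have hab : β.1 ≠ α.1 := by rw [hα]; exact hβ
    refine Bd_maxX hH hG β Y (fun _ => eps i) (fun j => differentiable_const _) 1 (76 * M / r)
      one_pos (by positivity) ?_ X hp0
    intro Z hZ
    have hZ0 : Z ≠ 0 := by
      intro h; rw [h, norm_zero] at hZ; exact zero_ne_one hZ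
    have hov : (![Z, Y] : Fin 2 → ℂ) ∈ overlap β α := by
      refine ⟨fun _ => ?_, fun h => ?_⟩
      · simpa using hZ0
      · exact absurd rfl h
    have htau : tau β α ![Z, Y] = ![Z⁻¹, Y] := by
      ext j
      fin_cases j
      · simp [tau, hab]
      · simp [tau, hα]
    have hstep := step2 hr hd hH hG hM hM0 α rfl Z⁻¹ Y (by rw [norm_inv, hZ, inv_one]) hp1 i
    apply Bd.of_transition (gE_cocycle d) hH hov
    rw [htau, gE_flipX (α := β) (β := α) d rfl hab]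
    have hcov : (DX ![Z, Y]).transpose.mulVec (eps i) = (if i = 0 then Z ^ 5 else Z ^ 2) • eps i := by
      ext j
      fin_cases i <;> fin_cases j <;> simp [DX, eps, Matrix.mulVec, dotProduct]
    rw [hcov]
    have := hstep.smul (if i = 0 then Z ^ 5 else Z ^ 2)
    have hn : ‖(if i = 0 then Z ^ 5 else Z ^ 2)‖ = 1 := by
      split_ifs <;> rw [norm_pow, hZ, one_pow]
    rw [hn, one_mul] at this
    exact this

end Crest.Agent.R258
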