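import Crest.Agent.R258.Defs

/-!
PIECE 258-2.  Algebra of twisted sections (general facts, any transition `g`).

* `add`, `smul`: immediate (`frameSubst` is linear: `MvPolynomial.bind₁` is an algebra hom).
* `mul`: `frameSubst` is multiplicative (`map_mul`), `lineTrans (a+a') (b+b') = lineTrans a b *
  lineTrans a' b'` on the overlap (`zpow_add₀`), `IsHomogeneous.mul`, and the coefficients of a
  product are finite sums of products (`MvPolynomial.coeff_mul`), hence differentiable
  (`Differentiable.fun_sum`, `.mul`).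
* `line`: for `a b : ℕ` and a chart `α₀` the section of `O(a,b)` (polynomial degree `0`) which is `1`
  on the chart `α₀`: `Q β p = C ((if β.1 = α₀.1 then 1 else (p 0)^a) * (if β.2 = α₀.2 then 1 else
  (p 1)^b))`.  `frameSubst` of a constant is the constant (`bind₁_C_right`).
* `ofVec`: the linear form `lin (s α p)` of a vector section; `frameSubst M (lin v) = lin (M.mulVec v)`.
* `toGlobal`: by definition.
-/

noncomputable section
namespace Crest.Agent.R258
open Crest.AlgGeometry.QuadricBundle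

variable {g : Transition 2} {n m : ℕ} {a b a' b' : ℤ}
  {Q Q' : Chart → (Fin 2 → ℂ) → MvPolynomial (Fin 2) ℂ}

theorem twsec_frameSubst_def (M : Matrix (Fin 2) (Fin 2) ℂ) (Q : MvPolynomial (Fin 2) ℂ) :
    frameSubst M Q = MvPolynomial.bind₁ (fun j => ∑ i, MvPolynomial.C (M i j) * MvPolynomial.X i) Q :=
  rfl

theorem IsTwSec.add (h : IsTwSec g n a b Q) (h' : IsTwSec g n a b Q') :
    IsTwSec g n a b (fun α p => Q α p + Q' α p) := by
  refine ⟨fun α p => (h.homog α p).add (h'.homog α p), fun α m => ?_, fun α β p hp => ?_⟩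
  · simp only [MvPolynomial.coeff_add]
    exact (h.diff α m).add (h'.diff α m)
  · rw [h.compat α β p hp, h'.compat α β p hp]
    simp only [twsec_frameSubst_def, map_add, smul_add]

theorem IsTwSec.zero (g : Transition 2) (n : ℕ) (a b : ℤ) :
    IsTwSec g n a b (fun _ _ => 0) := by
  refine ⟨fun α p => MvPolynomial.isHomogeneous_zero _ _ _, fun α m => ?_, fun α β p hp => ?_⟩
  · simp only [MvPolynomial.coeff_zero]
    exact differentiable_const _
  · simp only [twsec_frameSubst_def, map_zero, smul_zero]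

theorem IsTwSec.smul (c : ℂ) (h : IsTwSec g n a b Q) :
    IsTwSec g n a b (fun α p => c • Q α p) := by
  refine ⟨fun α p => ?_, fun α m => ?_, fun α β p hp => ?_⟩
  · exact (MvPolynomial.homogeneousSubmodule (Fin 2) ℂ n).smul_mem c (h.homog α p)
  · simp only [MvPolynomial.coeff_smul, smul_eq_mul]
    exact (h.diff α m).const_mul c
  · rw [h.compat α β p hp]
    simp only [twsec_frameSubst_def, map_smul]
    rw [smul_comm]

theorem twsec_lineTrans_add (a a' b b' : ℤ) (α β : Chart) (p : Fin 2 → ℂ) (hp : p ∈ overlap α β) :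
    lineTrans (a + a') (b + b') α β p = lineTrans a b α β p * lineTrans a' b' α β p := by
  obtain ⟨h1, h2⟩ := hp
  unfold lineTrans
  by_cases e1 : α.1 = β.1 <;> by_cases e2 : α.2 = β.2
  · simp [e1, e2]
  · rw [if_pos e1, if_neg e2, if_pos e1, if_neg e2, if_pos e1, if_neg e2, zpow_add₀ (h2 e2)]
    ring
  · rw [if_neg e1, if_pos e2, if_neg e1, if_pos e2, if_neg e1, if_pos e2, zpow_add₀ (h1 e1)]
    ring
  · rw [if_neg e1, if_neg e2, if_neg e1, if_neg e2, if_neg e1, if_neg e2, zpow_add₀ (h1 e1),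
      zpow_add₀ (h2 e2)]
    ring

theorem IsTwSec.mul (h : IsTwSec g n a b Q) (h' : IsTwSec g m a' b' Q') :
    IsTwSec g (n + m) (a + a') (b + b') (fun α p => Q α p * Q' α p) := by
  refine ⟨fun α p => (h.homog α p).mul (h'.homog α p), fun α m => ?_, fun α β p hp => ?_⟩
  · simp only [MvPolynomial.coeff_mul]
    exact Differentiable.fun_sum fun x _ => (h.diff α x.1).mul (h'.diff α x.2)
  · rw [h.compat α β p hp, h'.compat α β p hp, twsec_lineTrans_add _ _ _ _ _ _ _ hp]
    simp only [twsec_frameSubst_def, map_mul]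
    rw [smul_mul_smul_comm]

/-- a section of the line bundle `O(a, b)`, `a b : ℕ`, equal to `1` on the chart `α₀` -/
theorem IsTwSec.line (g : Transition 2) (a b : ℕ) (α₀ : Chart) :
    ∃ Q : Chart → (Fin 2 → ℂ) → MvPolynomial (Fin 2) ℂ,
      IsTwSec g 0 (a : ℤ) (b : ℤ) Q ∧ ∀ p, Q α₀ p = 1 := by
  refine ⟨fun β p => MvPolynomial.C ((if β.1 = α₀.1 then 1 else (p 0) ^ a) *
    (if β.2 = α₀.2 then 1 else (p 1) ^ b)), ⟨fun α p => MvPolynomial.isHomogeneous_C _ _,
    fun α m => ?_, fun α β p hp => ?_⟩, fun p => by simp⟩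
  · simp only [MvPolynomial.coeff_C]
    have h0 : Differentiable ℂ (fun p : Fin 2 → ℂ => p 0) := differentiable_apply 0
    have h1 : Differentiable ℂ (fun p : Fin 2 → ℂ => p 1) := differentiable_apply 1
    split_ifs <;> fun_prop
  · rw [twsec_frameSubst_def, MvPolynomial.bind₁_C_right, MvPolynomial.smul_eq_C_mul,
      ← MvPolynomial.C_mul]
    congr 1
    obtain ⟨h1, h2⟩ := hp
    unfold lineTrans tau
    obtain ⟨α1, α2⟩ := α
    obtain ⟨β1, β2⟩ := β
    obtain ⟨γ1, γ2⟩ := α₀
    dsimp only at h1 h2 ⊢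
    have key : ∀ (x y z : Fin 2) (w : ℂ) (c : ℕ), (x ≠ y → w ≠ 0) →
        (if x = z then (1 : ℂ) else w ^ c) = (if x = y then 1 else w ^ (c : ℤ)) *
          (if y = z then 1 else (if x = y then w else w⁻¹) ^ c) := by
      intro x y z w c hw
      by_cases e : x = y
      · subst e; simp
      · have hw' := hw e
        rw [if_neg e, if_neg e]
        by_cases e2 : x = z
        · have e3 : y ≠ z := fun h => e (e2.trans h.symm)
          rw [if_pos e2, if_neg e3, inv_pow, zpow_natCast, mul_inv_cancel₀ (pow_ne_zero _ hw')]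
        · have e3 : y = z := by omega
          rw [if_neg e2, if_pos e3, zpow_natCast, mul_one]
    have k1 := key α1 β1 γ1 (p 0) a h1
    have k2 := key α2 β2 γ2 (p 1) b h2
    simp only [Matrix.cons_val_zero, Matrix.cons_val_one]
    rw [k1, k2]
    ring

theorem twsec_lin_smul (c : ℂ) (v : Fin 2 → ℂ) : lin (c • v) = c • lin v := by
  simp only [lin, Pi.smul_apply, smul_eq_mul, MvPolynomial.C_mul, MvPolynomial.smul_eq_C_mul]
  ring

theorem twsec_frameSubst_lin (M : Matrix (Fin 2) (Fin 2) ℂ) (v : Fin 2 → ℂ) :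
    frameSubst M (lin v) = lin (M.mulVec v) := by
  simp only [lin, twsec_frameSubst_def, map_add, map_mul, MvPolynomial.bind₁_C_right,
    MvPolynomial.bind₁_X_right, Fin.sum_univ_two, Matrix.mulVec, dotProduct]
  ring

theorem IsTwSec.ofVec {s : Chart → (Fin 2 → ℂ) → (Fin 2 → ℂ)} (h : IsVecSec g a b s) :
    IsTwSec g 1 a b (fun α p => lin (s α p)) := by
  refine ⟨fun α p => ?_, fun α m => ?_, fun α β p hp => ?_⟩
  · exact (MvPolynomial.isHomogeneous_C_mul_X _ _).add (MvPolynomial.isHomogeneous_C_mul_X _ _)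
  · simp only [lin, MvPolynomial.coeff_add, MvPolynomial.coeff_C_mul]
    exact ((h.diff α 0).mul_const _).add ((h.diff α 1).mul_const _)
  · rw [h.compat α β p hp, twsec_lin_smul, twsec_frameSubst_lin]

theorem IsTwSec.toGlobal {k : ℕ} (h : IsTwSec g n (-(k : ℤ)) (-(k : ℤ)) Q) :
    IsGlobalSection g n k Q := ⟨h.homog, h.diff, h.compat⟩

end Crest.Agent.R258
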